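import Vale.Agent.P129.H630.B1

/-!
P129, part B: the norm.
-/

open Finset

namespace Vale.Agent.P129.B

open H448

/-! ### the norm -/

theorem toV_add (x y : Vec) : toV (x + y) = toV x + toV y := H630.toV_add norming x y

theorem toV_smul (c : ℝ) (x : Vec) : toV (c • x) = c • toV x := H630.toV_smul norming c x

theorem toV_zero : toV 0 = 0 := (H630.toVₗ norming).map_zero

theorem toV_neg (x : Vec) : toV (-x) = -toV x := (H630.toVₗ norming).map_neg x

theorem toV_sub (x y : Vec) : toV (x - y) = toV x - toV y := (H630.toVₗ norming).map_sub x y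

theorem toV_sum {κ : Type*} (t : Finset κ) (x : κ → Vec) :
    toV (∑ i ∈ t, x i) = ∑ i ∈ t, toV (x i) := map_sum (H630.toVₗ norming) _ _

theorem abs_ap_le_norm {φ : Fn} (hφ : φ ∈ K) (x : Vec) : |ap φ x| ≤ ‖toV x‖ := by
  rw [ap_eq_pair]
  exact H630.pair_le_norm norming hφ x

theorem bddAbove_ap (x : Vec) : BddAbove (Set.range fun φ : K => |ap φ.1 x|) := by
  refine ⟨‖toV x‖, ?_⟩
  rintro _ ⟨φ, rfl⟩
  exact abs_ap_le_norm φ.2 x

instance : Nonempty K := ⟨⟨0, zero_mem_K⟩⟩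

/-- elements of `K` are bounded by the norm -/
theorem abs_ap_le {φ : Fn} (hφ : φ ∈ K) (x : Vec) : |ap φ x| ≤ nrm x :=
  le_ciSup (bddAbove_ap x) ⟨φ, hφ⟩

theorem norm_toV (x : Vec) : ‖toV x‖ = nrm x := by
  refine le_antisymm ?_ ?_
  · refine H630.norm_toV_le norming x fun φ hφ => ?_
    rw [← ap_eq_pair]
    exact (le_abs_self _).trans (abs_ap_le hφ x)
  · exact ciSup_le fun φ => abs_ap_le_norm φ.2 x

theorem nrm_le {x : Vec} {C : ℝ} (h : ∀ φ ∈ K, ap φ x ≤ C) : nrm x ≤ C := by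
  rw [← norm_toV]
  refine H630.norm_toV_le norming x fun φ hφ => ?_
  rw [← ap_eq_pair]
  exact h φ hφ

theorem nrm_nonneg (x : Vec) : 0 ≤ nrm x := by rw [← norm_toV]; exact norm_nonneg _

theorem nrm_zero : nrm 0 = 0 := by rw [← norm_toV, toV_zero, norm_zero]

theorem nrm_add_le (x y : Vec) : nrm (x + y) ≤ nrm x + nrm y := by
  rw [← norm_toV, ← norm_toV, ← norm_toV, toV_add]
  exact norm_add_le _ _

theorem nrm_neg (x : Vec) : nrm (-x) = nrm x := by
  rw [← norm_toV, ← norm_toV, toV_neg, norm_neg]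

theorem nrm_sub_le (x y : Vec) : nrm (x - y) ≤ nrm x + nrm y := by
  rw [← norm_toV, ← norm_toV, ← norm_toV, toV_sub]
  exact norm_sub_le _ _

theorem nrm_smul (c : ℝ) (x : Vec) : nrm (c • x) = |c| * nrm x := by
  rw [← norm_toV, ← norm_toV, toV_smul, norm_smul, Real.norm_eq_abs]

theorem nrm_sum_le {κ : Type*} (t : Finset κ) (x : κ → Vec) :
    nrm (∑ i ∈ t, x i) ≤ ∑ i ∈ t, nrm (x i) := by
  rw [← norm_toV, toV_sum]
  refine (norm_sum_le _ _).trans_eq ?_
  exact Finset.sum_congr rfl fun i _ => norm_toV _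

theorem abs_apply_le_nrm (x : Vec) (a : W) : |x a| ≤ nrm x := by
  have := abs_ap_le (single_mem_K a) x
  rw [single_ap] at this
  simpa using this

theorem nrm_eq_zero_iff (x : Vec) : nrm x = 0 ↔ x = 0 := by
  constructor
  · intro h
    ext a
    have := abs_apply_le_nrm x a
    rw [h] at this
    exact abs_nonpos_iff.1 this
  · rintro rfl
    exact nrm_zero

theorem nrm_pos {x : Vec} (hx : x ≠ 0) : 0 < nrm x :=
  lt_of_le_of_ne (nrm_nonneg x) fun h => hx ((nrm_eq_zero_iff x).1 h.symm)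

theorem toV_injective : Function.Injective toV := by
  intro x y h
  have h1 : nrm (x - y) = 0 := by rw [← norm_toV, toV_sub, h, sub_self, norm_zero]
  exact sub_eq_zero.1 ((nrm_eq_zero_iff _).1 h1)

theorem nrm_res_le {I : Set W} (hI : I.OrdConnected) (x : Vec) : nrm (res I x) ≤ nrm x :=
  nrm_le fun φ hφ => by
    rw [ap_res]
    exact (le_abs_self _).trans (abs_ap_le (res_mem_K hφ hI) x)

/-! ### the `ℓ¹`-norm -/

theorem l1_nonneg (x : Vec) : 0 ≤ l1 x := Finset.sum_nonneg fun _ _ => abs_nonneg _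

theorem l1_eq_sum (x : Vec) {t : Finset W} (ht : x.support ⊆ t) : l1 x = ∑ a ∈ t, |x a| := by
  unfold l1
  refine Finset.sum_subset ht fun a _ ha => ?_
  rw [Finsupp.notMem_support_iff.1 ha, abs_zero]

theorem l1_zero : l1 0 = 0 := by unfold l1; simp

theorem l1_add_le (x y : Vec) : l1 (x + y) ≤ l1 x + l1 y := by
  classical
  rw [l1_eq_sum (x + y) Finsupp.support_add,
    l1_eq_sum x (Finset.subset_union_left (s₁ := x.support) (s₂ := y.support)),
    l1_eq_sum y (Finset.subset_union_right (s₁ := x.support) (s₂ := y.support)),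
    ← Finset.sum_add_distrib]
  exact Finset.sum_le_sum fun a _ => abs_add_le _ _

theorem l1_smul (c : ℝ) (x : Vec) : l1 (c • x) = |c| * l1 x := by
  rw [l1_eq_sum (c • x) (t := x.support) Finsupp.support_smul, l1, Finset.mul_sum]
  refine Finset.sum_congr rfl fun a _ => ?_
  rw [Finsupp.smul_apply, smul_eq_mul, abs_mul]

theorem l1_neg (x : Vec) : l1 (-x) = l1 x := by
  unfold l1
  rw [Finsupp.support_neg]
  refine Finset.sum_congr rfl fun a _ => ?_
  rw [Finsupp.neg_apply, abs_neg]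

theorem l1_sub_le (x y : Vec) : l1 (x - y) ≤ l1 x + l1 y := by
  rw [sub_eq_add_neg, ← l1_neg y]
  exact l1_add_le _ _

theorem l1_sum_le {κ : Type*} (t : Finset κ) (x : κ → Vec) :
    l1 (∑ i ∈ t, x i) ≤ ∑ i ∈ t, l1 (x i) := by
  classical
  induction t using Finset.induction_on with
  | empty => simp [l1_zero]
  | insert a t ha ih =>
    rw [Finset.sum_insert ha, Finset.sum_insert ha]
    exact (l1_add_le _ _).trans (by linarith)

theorem l1_res_le (I : Set W) (x : Vec) : l1 (res I x) ≤ l1 x := by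
  classical
  rw [l1_eq_sum (res I x) (support_res_subset I x), l1]
  refine Finset.sum_le_sum fun a _ => ?_
  rw [res_apply]
  split_ifs
  · exact le_rfl
  · rw [abs_zero]; exact abs_nonneg _

theorem abs_ap_le_mul_l1 {φ : Fn} {c : ℚ} (h : ∀ a, |φ a| ≤ c) (x : Vec) :
    |ap φ x| ≤ c * l1 x := by
  rw [ap_eq_sum φ x subset_rfl, l1, Finset.mul_sum]
  refine (Finset.abs_sum_le_sum_abs _ _).trans (Finset.sum_le_sum fun a _ => ?_)
  rw [abs_mul, mul_comm]
  refine mul_le_mul_of_nonneg_right ?_ (abs_nonneg _)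
  have := h a
  exact_mod_cast this

theorem abs_ap_le_l1 {φ : Fn} (hφ : φ ∈ K) (x : Vec) : |ap φ x| ≤ l1 x := by
  have := abs_ap_le_mul_l1 (abs_apply_le_one hφ) x
  simpa using this

theorem abs_ap_le_l1_div {n : ℕ} {φ : Fn} (hφ : φ ∈ Wtd K n) (x : Vec) :
    |ap φ x| ≤ l1 x / m n := by
  have := abs_ap_le_mul_l1 (abs_apply_le_of_Wtd hφ) x
  rw [div_eq_inv_mul]
  simpa using this

theorem nrm_le_l1 (x : Vec) : nrm x ≤ l1 x :=
  nrm_le fun _ hφ => (le_abs_self _).trans (abs_ap_le_l1 hφ x)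

theorem l1_single (a : W) (r : ℝ) : l1 (Finsupp.single a r) = |r| := by
  rw [l1_eq_sum _ Finsupp.support_single_subset, Finset.sum_singleton, Finsupp.single_eq_same]

theorem nrm_single (a : W) (r : ℝ) : nrm (Finsupp.single a r) = |r| := by
  refine le_antisymm ((nrm_le_l1 _).trans_eq (l1_single a r)) ?_
  have := abs_apply_le_nrm (Finsupp.single a r) a
  rwa [Finsupp.single_eq_same] at this

/-! ### convex hulls of supports -/

theorem subset_ran (s : Finset W) {a : W} (h : a ∈ s) : a ∈ ran s := ⟨a, h, a, h, le_rfl, le_rfl⟩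

theorem ordConnected_ran (s : Finset W) : (ran s).OrdConnected := by
  refine ⟨?_⟩
  rintro a ⟨b, hb, _, _, hba, _⟩ a' ⟨_, _, c, hc, _, hac⟩ x hx
  exact ⟨b, hb, c, hc, hba.trans hx.1, hx.2.trans hac⟩

theorem SLt.ran {s t : Finset W} (h : SLt s t) : ILt (ran s) (ran t) := by
  rintro a ⟨_, _, c, hc, _, hac⟩ a' ⟨b, hb, _, _, hba, _⟩
  exact lt_of_le_of_lt hac (lt_of_lt_of_le (h c hc b hb) hba)

theorem ran_subset_of_ordConnected {s : Finset W} {I : Set W} (hI : I.OrdConnected)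
    (h : ∀ a ∈ s, a ∈ I) : H448.ran s ⊆ I := by
  rintro a ⟨b, hb, c, hc, hba, hac⟩
  exact hI.out (h b hb) (h c hc) ⟨hba, hac⟩

theorem res_ran_self {R : Type} [Zero R] (x : W →₀ R) : res (H448.ran x.support) x = x :=
  res_eq_self fun _ ha => subset_ran _ ha

/-- an almost norming functional with support in the range of the vector -/
theorem exists_ap {c : ℝ} {x : Vec} (h : c < nrm x) :
    ∃ φ ∈ K, (∀ a ∈ φ.support, a ∈ H448.ran x.support) ∧ c < ap φ x := by
  obtain ⟨φ, hφ, hc⟩ : ∃ φ ∈ K, c < ap φ x := by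
    by_contra hcon
    push Not at hcon
    exact absurd (nrm_le hcon) (not_le.2 h)
  refine ⟨res (H448.ran x.support) φ, res_mem_K hφ (ordConnected_ran _), fun a ha =>
    ((mem_support_res _ _ _).1 ha).2, ?_⟩
  rwa [← ap_res, res_ran_self]

/-- the part of a successive sum in the range of a summand -/
theorem res_ran_sum {t : Finset ℕ} {z : ℕ → Vec}
    (hs : ∀ i ∈ t, ∀ j ∈ t, i < j → SLt (z i).support (z j).support) {i : ℕ} (hi : i ∈ t) :
    res (H448.ran (z i).support) (∑ j ∈ t, z j) = z i := by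
  rw [res_sum, Finset.sum_eq_single i]
  · exact res_ran_self _
  · intro j hj hji
    refine res_eq_zero ?_
    rintro a ha ⟨b, hb, c, hc, hba, hac⟩
    rcases lt_or_gt_of_ne hji with h1 | h1
    · exact absurd (hs j hj i hi h1 a ha b hb) (not_lt.2 hba)
    · exact absurd (hs i hi j hj h1 c hc a ha) (not_lt.2 hac)
  · exact fun h => absurd hi h

/-! ### Estimate (E) -/

/-- **(E)**, for intervals -/
theorem sum_res_le {n d : ℕ} (hn : 2 ≤ n) (hd : d ≤ n) (I : ℕ → Set W)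
    (hI : ∀ i < d, (I i).OrdConnected) (hs : ∀ i j, i < j → j < d → ILt (I i) (I j)) (x : Vec) :
    ∑ i ∈ range d, nrm (res (I i) x) ≤ m n * nrm x := by
  classical
  refine le_of_forall_pos_le_add fun ε hε => ?_
  have hδ : 0 < ε / (d + 1) := by positivity
  have h1 : ∀ i, ∃ φ ∈ K, (∀ a ∈ φ.support, a ∈ H448.ran (res (I i) x).support) ∧
      nrm (res (I i) x) - ε / (d + 1) < ap φ (res (I i) x) := fun i =>
    exists_ap (sub_lt_self _ hδ)
  choose φ hφ hsup hgt using h1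
  have hsupI : ∀ i < d, ∀ a ∈ (φ i).support, a ∈ I i := fun i hi a ha =>
    ran_subset_of_ordConnected (hI i hi) (fun b hb => ((mem_support_res _ _ _).1 hb).2)
      (hsup i a ha)
  have hl : ((m n : ℚ)⁻¹) • ∑ i ∈ range d, φ i ∈ K := by
    refine Wtd_subset_K hn ⟨d, φ, hd, fun i _ => hφ i, fun i j hij hj a ha b hb => ?_, rfl⟩
    exact hs i j hij hj a (hsupI i (hij.trans hj) a ha) b (hsupI j hj b hb)
  have h2 := (le_abs_self _).trans (abs_ap_le hl x)
  rw [smul_ap, sum_ap] at h2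
  have h3 : ∀ i ∈ range d, ap (φ i) x = ap (φ i) (res (I i) x) := fun i hi => by
    rw [ap_res, res_eq_self (hsupI i (Finset.mem_range.1 hi))]
  rw [Finset.sum_congr rfl h3] at h2
  have h4 : ∑ i ∈ range d, (nrm (res (I i) x) - ε / (d + 1)) ≤
      ∑ i ∈ range d, ap (φ i) (res (I i) x) := Finset.sum_le_sum fun i _ => (hgt i).le
  rw [Finset.sum_sub_distrib, Finset.sum_const, Finset.card_range, nsmul_eq_mul] at h4
  have h5 : (d : ℝ) * (ε / (d + 1)) ≤ ε := by
    rw [mul_div_assoc', div_le_iff₀ (by positivity)]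
    nlinarith
  push_cast at h2
  rw [inv_mul_le_iff₀ (m_cast_pos n)] at h2
  linarith

/-- **(E)**, for intervals indexed by a finite set of numbers -/
theorem sum_res_le' {n : ℕ} (hn : 2 ≤ n) {t : Finset ℕ} (ht : t.card ≤ n) (I : ℕ → Set W)
    (hI : ∀ i ∈ t, (I i).OrdConnected) (hs : ∀ i ∈ t, ∀ j ∈ t, i < j → ILt (I i) (I j))
    (x : Vec) : ∑ i ∈ t, nrm (res (I i) x) ≤ m n * nrm x := by
  classical
  let e : ℕ → ℕ := fun k => if h : k < t.card then t.orderEmbOfFin rfl ⟨k, h⟩ else 0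
  have he : ∀ k < t.card, e k ∈ t := fun k hk => by
    simp only [e, dif_pos hk]
    exact Finset.orderEmbOfFin_mem t rfl _
  have hlt : ∀ k l, k < l → l < t.card → e k < e l := fun k l hkl hl => by
    simp only [e, dif_pos hl, dif_pos (hkl.trans hl)]
    exact (t.orderEmbOfFin rfl).strictMono hkl
  have h1 := sum_res_le hn ht (fun k => I (e k)) (fun k hk => hI _ (he k hk))
    (fun k l hkl hl => hs _ (he k (hkl.trans hl)) _ (he l hl) (hlt k l hkl hl)) x
  refine le_trans (le_of_eq ?_) h1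
  symm
  refine Finset.sum_bij (fun k _ => e k) (fun k hk => he k (Finset.mem_range.1 hk)) ?_ ?_
    (fun _ _ => rfl)
  · intro k hk l hl hkl
    rw [Finset.mem_range] at hk hl
    rcases lt_trichotomy k l with h2 | h2 | h2
    · exact absurd hkl (hlt k l h2 hl).ne
    · exact h2
    · exact absurd hkl (hlt l k h2 hk).ne'
  · intro i hi
    have hi' : i ∈ Set.range (t.orderEmbOfFin rfl) := by
      rw [Finset.range_orderEmbOfFin]
      exact hi
    obtain ⟨k, hk⟩ := hi'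
    refine ⟨k, Finset.mem_range.2 k.2, ?_⟩
    simp only [e, dif_pos k.2]
    exact hk

/-- **(E)**, for successive vectors -/
theorem sum_nrm_le {n : ℕ} (hn : 2 ≤ n) {t : Finset ℕ} (ht : t.card ≤ n) {z : ℕ → Vec}
    (hs : ∀ i ∈ t, ∀ j ∈ t, i < j → SLt (z i).support (z j).support) :
    ∑ i ∈ t, nrm (z i) ≤ m n * nrm (∑ i ∈ t, z i) := by
  have h1 := sum_res_le' hn ht (fun i => H448.ran (z i).support)
    (fun i _ => ordConnected_ran _) (fun i hi j hj hij => SLt.ran (hs i hi j hj hij))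
    (∑ i ∈ t, z i)
  refine le_trans (le_of_eq ?_) h1
  exact Finset.sum_congr rfl fun i hi => by rw [res_ran_sum hs hi]

/-! ### (C) -/

theorem fn_mem_K {s : Seg} (h : s.Ok K) : s.fn ∈ K := by
  refine Sums_subset_K 0 ⟨1, fun _ => s, fun _ => 1, ⟨fun _ _ => h, fun _ _ => Or.inl rfl, ?_, ?_,
    fun _ _ _ _ => Nat.zero_le _⟩, ?_⟩
  · intro r hr r' hr' hne
    omega
  · intro r _ w hw
    exact Ok.idx_pos h hw
  · simp

theorem abs_ap_fn_le {s : Seg} (h : s.Ok K) (x : Vec) : |ap s.fn x| ≤ nrm x :=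
  abs_ap_le (fn_mem_K h) x

/-- **(C)** For an admissible family of segments, the sum of the absolute values is at most the
norm. -/
theorem sum_abs_ap_fn_le {N : ℕ} {s : ℕ → Seg} (ok : ∀ r < N, (s r).Ok K)
    (disj : ∀ r < N, ∀ r' < N, r ≠ r' → Disjoint (s r).idx (s r').idx)
    (card : ∀ r < N, ∀ w ∈ (s r).idx, N ≤ w) (x : Vec) :
    ∑ r ∈ range N, |ap (s r).fn x| ≤ nrm x := by
  classical
  let ε : ℕ → ℚ := fun r => if 0 ≤ ap (s r).fn x then 1 else -1
  have h1 : ∑ r ∈ range N, ε r • (s r).fn ∈ K := by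
    refine Sums_subset_K 0 ⟨N, s, ε, ⟨ok, fun r _ => ?_, disj, card, fun _ _ _ _ => Nat.zero_le _⟩,
      rfl⟩
    by_cases h : 0 ≤ ap (s r).fn x
    · left; simp only [ε, if_pos h]
    · right; simp only [ε, if_neg h]
  have h2 := (le_abs_self _).trans (abs_ap_le h1 x)
  rw [sum_ap] at h2
  refine le_trans (le_of_eq ?_) h2
  refine Finset.sum_congr rfl fun r _ => ?_
  rw [smul_ap]
  by_cases h : 0 ≤ ap (s r).fn x
  · simp only [ε, if_pos h]
    rw [abs_of_nonneg h]
    push_cast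
    ring
  · simp only [ε, if_neg h]
    rw [abs_of_neg (not_le.1 h)]
    push_cast
    ring

/-- (C) for families of segments indexed by a finite set -/
theorem sum_abs_ap_fn_le' {κ : Type*} (t : Finset κ) {s : κ → Seg} (ok : ∀ r ∈ t, (s r).Ok K)
    (disj : ∀ r ∈ t, ∀ r' ∈ t, r ≠ r' → Disjoint (s r).idx (s r').idx)
    (card : ∀ r ∈ t, ∀ w ∈ (s r).idx, t.card ≤ w) (x : Vec) :
    ∑ r ∈ t, |ap (s r).fn x| ≤ nrm x := by
  classical
  rcases Nat.eq_zero_or_pos t.card with h0 | h0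
  · rw [Finset.card_eq_zero.1 h0, Finset.sum_empty]
    exact nrm_nonneg x
  obtain ⟨e⟩ : Nonempty (Fin t.card ≃ t) := ⟨t.equivFin.symm⟩
  let e' : ℕ → κ := fun k => (e (if h : k < t.card then ⟨k, h⟩ else ⟨0, h0⟩)).1
  have he : ∀ k (hk : k < t.card), e' k = (e ⟨k, hk⟩).1 := fun k hk => by
    simp only [e', dif_pos hk]
  have hmem : ∀ k, e' k ∈ t := fun k => (e _).2
  have h1 := sum_abs_ap_fn_le (N := t.card) (s := fun k => s (e' k)) (fun k _ => ok _ (hmem k))
    (fun k hk l hl hne => disj _ (hmem k) _ (hmem l) fun h => hne (by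
      rw [he k hk, he l hl] at h
      have := e.injective (Subtype.ext h)
      exact Fin.mk.inj_iff.1 this))
    (fun k _ => card _ (hmem k)) x
  refine le_trans (le_of_eq ?_) h1
  rw [← Finset.sum_coe_sort t, ← e.sum_comp, Finset.sum_range]
  refine Finset.sum_congr rfl fun k _ => ?_
  rw [he k k.2]

/-- an admissible sum is bounded by the sum of the absolute values of its segments -/
theorem abs_ap_sums_le {A : Set Fn} {lo N : ℕ} {s : ℕ → Seg} {ε : ℕ → ℚ} (h : Adm A lo N s ε)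
    (x : Vec) : |ap (∑ r ∈ range N, ε r • (s r).fn) x| ≤ ∑ r ∈ range N, |ap (s r).fn x| := by
  rw [sum_ap]
  refine (Finset.abs_sum_le_sum_abs _ _).trans (Finset.sum_le_sum fun r hr => ?_)
  rw [smul_ap, abs_mul]
  rcases h.sign r (Finset.mem_range.1 hr) with h1 | h1 <;> rw [h1] <;> simp

/-! ### nodes -/

/-- the restricted nodes of a segment are weighted averages -/
theorem Ok.node_mem {A : Set Fn} {s : Seg} (h : s.Ok A) (hA : A ⊆ K) {k : ℕ} (hk : k ∈ s.nodes) :
    res s.I (s.Φ k).φ ∈ Wtd K (ell (s.Φ k).w) :=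
  res_mem_Wtd (Wtd_mono hA _ (h.sp.wtd k (mem_nodes.1 hk).1)) h.hI

theorem two_mul_m_ell_le (w : ℕ) : 2 * m (ell w) ≤ m (ell (w + 1)) := by
  rw [m_ell_succ]
  unfold m fw
  have h1 : ∀ n : ℕ, 8 ≤ n → 2 * (1 + Nat.log 2 n) ≤ 1 + n := by
    intro n hn
    have h2 : 2 ^ Nat.log 2 n ≤ n := Nat.pow_log_le_self 2 (by omega)
    have h3 : 3 ≤ Nat.log 2 n := by
      have : Nat.log 2 8 ≤ Nat.log 2 n := Nat.log_mono_right hn
      have h8 : Nat.log 2 8 = 3 := by
        have : (8 : ℕ) = 2 ^ 3 := by norm_num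
        rw [this, Nat.log_pow (by norm_num)]
      omega
    have h4 : ∀ k : ℕ, 3 ≤ k → 2 * (1 + k) ≤ 2 ^ k := by
      intro k hk
      induction k, hk using Nat.le_induction with
      | base => norm_num
      | succ k hk ih => rw [pow_succ]; omega
    have := h4 _ h3
    omega
  have h5 : 8 ≤ ell w := by
    have h6 : 2 ^ 3 ≤ ell 0 := Nat.pow_le_pow_right (by norm_num) (by norm_num)
    exact h6.trans (ell_strictMono.monotone (Nat.zero_le w))
  have := h1 _ h5
  omega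

theorem pow_mul_m_ell_le (w j : ℕ) : 2 ^ j * m (ell w) ≤ m (ell (w + j)) := by
  induction j with
  | zero => simp
  | succ j ih =>
    have := two_mul_m_ell_le (w + j)
    rw [← add_assoc, pow_succ]
    nlinarith

/-- the weights of nodes with large index are summable -/
theorem sum_inv_m_ell_le {L : ℕ} {t : Finset ℕ} (ht : ∀ w ∈ t, L ≤ w) :
    ∑ w ∈ t, (m (ell w) : ℝ)⁻¹ ≤ 2 / m (ell L) := by
  have h1 : ∀ w ∈ t, (m (ell w) : ℝ)⁻¹ ≤ (1 / 2) ^ (w - L) * (m (ell L) : ℝ)⁻¹ := by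
    intro w hw
    have h2 := pow_mul_m_ell_le L (w - L)
    rw [Nat.add_sub_cancel' (ht w hw)] at h2
    have h3 : (2 : ℝ) ^ (w - L) * m (ell L) ≤ m (ell w) := by exact_mod_cast h2
    have h4 : (0 : ℝ) < 2 ^ (w - L) * m (ell L) := mul_pos (by positivity) (m_cast_pos _)
    calc (m (ell w) : ℝ)⁻¹ ≤ (2 ^ (w - L) * m (ell L) : ℝ)⁻¹ := inv_anti₀ h4 h3
      _ = _ := by rw [mul_inv, one_div, inv_pow]
  refine (Finset.sum_le_sum h1).trans ?_
  rw [← Finset.sum_mul, div_eq_mul_inv (2 : ℝ) (m (ell L) : ℝ)]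
  refine mul_le_mul_of_nonneg_right ?_ (inv_nonneg.2 (m_cast_pos _).le)
  have h5 : ∑ w ∈ t, (1 / 2 : ℝ) ^ (w - L) = ∑ j ∈ t.image (· - L), (1 / 2 : ℝ) ^ j := by
    rw [Finset.sum_image]
    intro a ha b hb hab
    have := ht a ha
    have := ht b hb
    simp only at hab
    omega
  rw [h5]
  have h6 : t.image (· - L) ⊆ range ((t.image (· - L)).sup id + 1) := fun j hj => by
    rw [Finset.mem_range]
    exact Nat.lt_succ_of_le (Finset.le_sup (f := id) hj)
  refine (Finset.sum_le_sum_of_subset_of_nonneg h6 (fun _ _ _ => by positivity)).trans ?_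
  exact sum_geometric_two_le _

/-- the nodes of an admissible family with weight indices `≥ L` are small on `x` -/
theorem abs_ap_fn_le_l1 {A : Set Fn} (hA : A ⊆ K) {s : Seg} (h : s.Ok A) {L : ℕ}
    (hL : ∀ w ∈ s.idx, L ≤ w) (x : Vec) : |ap s.fn x| ≤ 2 * l1 x / m (ell L) := by
  classical
  rw [ap_fn]
  refine (Finset.abs_sum_le_sum_abs _ _).trans ?_
  have h1 : ∀ k ∈ s.nodes, |ap (res s.I (s.Φ k).φ) x| ≤ l1 x * (m (ell (s.Φ k).w) : ℝ)⁻¹ :=
    fun k hk => by
      rw [← div_eq_mul_inv]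
      exact abs_ap_le_l1_div (Ok.node_mem h hA hk) x
  refine (Finset.sum_le_sum h1).trans ?_
  rw [← Finset.mul_sum]
  have h2 : ∑ k ∈ s.nodes, (m (ell (s.Φ k).w) : ℝ)⁻¹ = ∑ w ∈ s.idx, (m (ell w) : ℝ)⁻¹ := by
    unfold Seg.idx
    rw [Finset.sum_image]
    intro a ha b hb hab
    exact IsSpecial.w_inj h.sp (mem_nodes.1 ha).1 (mem_nodes.1 hb).1 hab
  rw [h2, mul_comm 2, mul_div_assoc]
  exact mul_le_mul_of_nonneg_left (sum_inv_m_ell_le hL) (l1_nonneg x)

/-- the same for families of segments with disjoint sets of weight indices -/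
theorem sum_abs_ap_fn_le_l1 {A : Set Fn} (hA : A ⊆ K) {N : ℕ} {s : ℕ → Seg}
    (ok : ∀ r < N, (s r).Ok A)
    (disj : ∀ r < N, ∀ r' < N, r ≠ r' → Disjoint (s r).idx (s r').idx) {L : ℕ}
    (hL : ∀ r < N, ∀ w ∈ (s r).idx, L ≤ w) (x : Vec) :
    ∑ r ∈ range N, |ap (s r).fn x| ≤ 2 * l1 x / m (ell L) := by
  classical
  have h0 : ∀ r ∈ range N, |ap (s r).fn x| ≤ l1 x * ∑ w ∈ (s r).idx, (m (ell w) : ℝ)⁻¹ := by
    intro r hr
    have hr' := Finset.mem_range.1 hr
    rw [ap_fn]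
    refine (Finset.abs_sum_le_sum_abs _ _).trans ?_
    have h1 : ∀ k ∈ (s r).nodes, |ap (res (s r).I ((s r).Φ k).φ) x| ≤
        l1 x * (m (ell ((s r).Φ k).w) : ℝ)⁻¹ := fun k hk => by
      rw [← div_eq_mul_inv]
      exact abs_ap_le_l1_div (Ok.node_mem (ok r hr') hA hk) x
    refine (Finset.sum_le_sum h1).trans ?_
    rw [← Finset.mul_sum]
    refine le_of_eq ?_
    congr 1
    unfold Seg.idx
    rw [Finset.sum_image]
    intro a ha b hb hab
    exact IsSpecial.w_inj (ok r hr').sp (mem_nodes.1 ha).1 (mem_nodes.1 hb).1 hab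
  refine (Finset.sum_le_sum h0).trans ?_
  rw [← Finset.mul_sum, mul_comm 2, mul_div_assoc]
  refine mul_le_mul_of_nonneg_left ?_ (l1_nonneg x)
  rw [← Finset.sum_biUnion]
  · refine sum_inv_m_ell_le fun w hw => ?_
    obtain ⟨r, hr, hw⟩ := Finset.mem_biUnion.1 hw
    exact hL r (Finset.mem_range.1 hr) w hw
  · intro r hr r' hr' hne
    exact disj r (Finset.mem_range.1 hr) r' (Finset.mem_range.1 hr') hne

/-! ### averages -/

theorem AvgBound.mono {n n' : ℕ} {x : Vec} {C C' : ℝ} (h : AvgBound n x C) (hn : n' ≤ n)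
    (hC : C ≤ C') : AvgBound n' x C' := fun d I hd hI hs => (h d I (hd.trans hn) hI hs).trans hC

theorem AvgBound.smul {n : ℕ} {x : Vec} {C : ℝ} (h : AvgBound n x C) (c : ℝ) :
    AvgBound n (c • x) (|c| * C) := fun d I hd hI hs => by
  simp only [res_smul, nrm_smul]
  rw [← Finset.mul_sum]
  exact mul_le_mul_of_nonneg_left (h d I hd hI hs) (abs_nonneg c)

theorem AvgBound.nrm_le {n : ℕ} (hn : 0 < n) {x : Vec} {C : ℝ} (h : AvgBound n x C) :
    nrm x ≤ C := by
  have := h 1 (fun _ => Set.univ) hn (fun _ _ => Set.ordConnected_univ) (fun i j _ _ => by omega)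
  rwa [Finset.sum_range_one, res_univ] at this

theorem avgBound_of_two_le {n : ℕ} (hn : 2 ≤ n) (x : Vec) : AvgBound n x (m n * nrm x) :=
  fun _ I hd hI hs => sum_res_le hn hd I hI hs x

theorem AvgBound.res {n : ℕ} {x : Vec} {C : ℝ} (h : AvgBound n x C) {J : Set W}
    (hJ : J.OrdConnected) : AvgBound n (res J x) C := fun d I hd hI hs => by
  simp only [res_res]
  exact h d (fun i => I i ∩ J) hd (fun i hi => (hI i hi).inter hJ)
    (fun i j hij hj a ha b hb => hs i j hij hj a ha.1 b hb.1)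

/-- functionals of small weight are small on averages -/
theorem AvgBound.abs_ap_le {n k : ℕ} {x : Vec} {C : ℝ} (h : AvgBound n x C) (hk : k ≤ n)
    {φ : Fn} (hφ : φ ∈ Wtd K k) : |ap φ x| ≤ C / m k := by
  obtain ⟨d, ψ, hd, hψ, hs, rfl⟩ := hφ
  rw [smul_ap, sum_ap, abs_mul]
  have h1 : ∀ i ∈ range d, |ap (ψ i) x| ≤ nrm (H448.res (H448.ran (ψ i).support) x) := by
    intro i hi
    have h2 := B.abs_ap_le (hψ i (Finset.mem_range.1 hi)) (H448.res (H448.ran (ψ i).support) x)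
    rwa [ap_res, res_ran_self] at h2
  have h3 := h d (fun i => H448.ran (ψ i).support) (hd.trans hk) (fun i _ => ordConnected_ran _)
    (fun i j hij hj => SLt.ran (hs i j hij hj))
  have h4 : |∑ i ∈ range d, ap (ψ i) x| ≤ C :=
    ((Finset.abs_sum_le_sum_abs _ _).trans (Finset.sum_le_sum h1)).trans h3
  have h5 : |(((m k : ℚ)⁻¹ : ℚ) : ℝ)| = (m k : ℝ)⁻¹ := by
    push_cast
    exact abs_of_nonneg (inv_nonneg.2 (m_cast_pos k).le)
  rw [h5, div_eq_inv_mul]
  exact mul_le_mul_of_nonneg_left h4 (inv_nonneg.2 (m_cast_pos k).le)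

end Vale.Agent.P129.B
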