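import Mathlib

/-!
P129, part B (abstract form): the Banach space `V` of a norming set `K` of finitely supported
rational functionals on `ι`.

`V` is realised as the closure, in the space of bounded functions on `K`, of the functions
`φ ↦ ∑ φ_a x_a`, `x` a finitely supported real vector.
-/

namespace Vale.Agent.P129.H630

open scoped ENNReal lp

/-- `φ < ψ`: all elements of the support of `φ` are below all elements of the support of `ψ` -/
def Suc {ι : Type*} [LinearOrder ι] (φ ψ : ι →₀ ℚ) : Prop :=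
  ∀ a ∈ φ.support, ∀ b ∈ ψ.support, a < b

open Classical in
/-- restriction of a functional to a set -/
noncomputable def res {ι : Type*} (I : Set ι) (φ : ι →₀ ℚ) : ι →₀ ℚ := φ.filter (· ∈ I)

/-- the closure properties of the norming set which are used for the basic facts about `V` -/
structure Norming {ι : Type*} [LinearOrder ι] (K : Set (ι →₀ ℚ)) (m : ℕ → ℚ) : Prop where
  single_mem : ∀ a, Finsupp.single a 1 ∈ K
  neg_mem : ∀ φ ∈ K, -φ ∈ K
  abs_le : ∀ φ ∈ K, ∀ a, |φ a| ≤ 1
  res_mem : ∀ φ ∈ K, ∀ I : Set ι, I.OrdConnected → res I φ ∈ K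
  avg_mem : ∀ n, 2 ≤ n → ∀ l : List (ι →₀ ℚ), l.length ≤ n → (∀ φ ∈ l, φ ∈ K) →
    l.Pairwise Suc → (m n)⁻¹ • l.sum ∈ K

variable {ι : Type*}

/-- the value of a rational functional at a finitely supported real vector -/
noncomputable def pair (φ : ι →₀ ℚ) (x : ι →₀ ℝ) : ℝ := x.sum fun a r => (φ a : ℝ) * r

theorem pair_single (φ : ι →₀ ℚ) (a : ι) (r : ℝ) :
    pair φ (Finsupp.single a r) = φ a * r := by
  unfold pair
  exact Finsupp.sum_single_index (by simp)

theorem pair_add (φ : ι →₀ ℚ) (x y : ι →₀ ℝ) : pair φ (x + y) = pair φ x + pair φ y := by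
  classical
  unfold pair
  exact Finsupp.sum_add_index (by simp) (by intros; ring)

theorem pair_smul (φ : ι →₀ ℚ) (c : ℝ) (x : ι →₀ ℝ) : pair φ (c • x) = c * pair φ x := by
  unfold pair
  rw [Finsupp.sum_smul_index (by simp), Finsupp.mul_sum]
  exact Finsupp.sum_congr fun a _ => by ring

theorem pair_zero (φ : ι →₀ ℚ) : pair φ 0 = 0 := by
  unfold pair; exact Finsupp.sum_zero_index

theorem pair_comm (φ : ι →₀ ℚ) (x : ι →₀ ℝ) : pair φ x = φ.sum fun a q => (q : ℝ) * x a := by
  classical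
  unfold pair
  rw [Finsupp.sum_of_support_subset (s := x.support ∪ φ.support) _
      Finset.subset_union_left _ (by simp),
    Finsupp.sum_of_support_subset (s := x.support ∪ φ.support) _
      Finset.subset_union_right _ (by simp)]

/-- the ambient space of bounded functions on `K` -/
abbrev Amb (K : Set (ι →₀ ℚ)) := lp (fun _ : K => ℝ) ∞

/-- the functions given by finitely supported vectors -/
def fin (K : Set (ι →₀ ℚ)) : Submodule ℝ (Amb K) where
  carrier := {v | ∃ x : ι →₀ ℝ, ∀ φ : K, v φ = pair φ x}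
  add_mem' := by
    rintro v w ⟨x, hx⟩ ⟨y, hy⟩
    refine ⟨x + y, fun φ => ?_⟩
    rw [pair_add, ← hx, ← hy]
    rfl
  zero_mem' := ⟨0, fun φ => by rw [pair_zero]; rfl⟩
  smul_mem' := by
    rintro c v ⟨x, hx⟩
    refine ⟨c • x, fun φ => ?_⟩
    rw [pair_smul, ← hx]
    rfl

/-- the Banach space `V` of the norming set `K` -/
noncomputable def VV (K : Set (ι →₀ ℚ)) : Submodule ℝ (Amb K) := (fin K).topologicalClosure

/-- `V` as a type -/
def VT (K : Set (ι →₀ ℚ)) : Type _ := VV K

noncomputable instance (K : Set (ι →₀ ℚ)) : NormedAddCommGroup (VT K) :=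
  inferInstanceAs (NormedAddCommGroup (VV K))

noncomputable instance (K : Set (ι →₀ ℚ)) : NormedSpace ℝ (VT K) :=
  inferInstanceAs (NormedSpace ℝ (VV K))

instance (K : Set (ι →₀ ℚ)) : CompleteSpace (VT K) :=
  (Submodule.isClosed_topologicalClosure (fin K)).completeSpace_coe

/-- the bounded function given by an element of `V` -/
def VT.amb {K : Set (ι →₀ ℚ)} (v : VT K) : Amb K := Subtype.val (p := fun w => w ∈ VV K) v

/-- the inclusion of `V` in the ambient space -/
noncomputable def ambL (K : Set (ι →₀ ℚ)) : VT K →L[ℝ] Amb K := (VV K).subtypeL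

theorem ambL_apply {K : Set (ι →₀ ℚ)} (v : VT K) : ambL K v = v.amb := rfl

theorem VT.norm_def {K : Set (ι →₀ ℚ)} (v : VT K) : ‖v‖ = ‖v.amb‖ := rfl

theorem VT.mem {K : Set (ι →₀ ℚ)} (v : VT K) : v.amb ∈ VV K := Subtype.property v

/-- constructor -/
def VT.mk {K : Set (ι →₀ ℚ)} (v : Amb K) (h : v ∈ VV K) : VT K := ⟨v, h⟩

theorem VT.amb_mk {K : Set (ι →₀ ℚ)} (v : Amb K) (h : v ∈ VV K) : (VT.mk v h).amb = v := rfl

theorem VT.tendsto_iff {K : Set (ι →₀ ℚ)} {u : ℕ → VT K} {w : VT K} :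
    Filter.Tendsto u Filter.atTop (nhds w) ↔
      Filter.Tendsto (fun n => (u n).amb) Filter.atTop (nhds w.amb) :=
  tendsto_subtype_rng (p := fun w => w ∈ VV K) (f := u)

/-- evaluation at an element of `K` -/
noncomputable def ev {K : Set (ι →₀ ℚ)} (φ : K) : VT K →L[ℝ] ℝ :=
  LinearMap.mkContinuous
    { toFun := fun v => v.amb φ
      map_add' := fun v w => rfl
      map_smul' := fun c v => rfl } 1
    (fun v => by
      rw [one_mul]
      exact lp.norm_apply_le_norm (by simp) v.amb φ)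

theorem ev_apply {K : Set (ι →₀ ℚ)} (φ : K) (v : VT K) : ev φ v = v.amb φ := rfl

theorem abs_ev_le {K : Set (ι →₀ ℚ)} (φ : K) (v : VT K) : |ev φ v| ≤ ‖v‖ :=
  lp.norm_apply_le_norm (by simp) v.amb φ

theorem norm_ev_le {K : Set (ι →₀ ℚ)} (φ : K) : ‖ev φ‖ ≤ 1 :=
  LinearMap.mkContinuous_norm_le _ zero_le_one _

theorem norm_le_of_ev {K : Set (ι →₀ ℚ)} (v : VT K) {C : ℝ} (hC : 0 ≤ C)
    (h : ∀ φ : K, |ev φ v| ≤ C) : ‖v‖ ≤ C :=
  lp.norm_le_of_forall_le hC h

/-- two continuous linear maps on `V` which agree on the finitely supported vectors are equal -/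
theorem ext_of_fin {K : Set (ι →₀ ℚ)} {E : Type*} [NormedAddCommGroup E] [NormedSpace ℝ E]
    (f g : VT K →L[ℝ] E) (h : ∀ v : VT K, (∃ x : ι →₀ ℝ, ∀ φ : K, ev φ v = pair φ x) → f v = g v) :
    f = g := by
  ext v
  have hd : IsClosed {w : VT K | f w = g w} := isClosed_eq f.continuous g.continuous
  have hdense : Dense {w : VT K | ∃ x : ι →₀ ℝ, ∀ φ : K, ev φ w = pair φ x} := by
    intro w
    have hw : w.amb ∈ closure (fin K : Set (Amb K)) := w.2
    rw [mem_closure_iff_seq_limit] at hw ⊢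
    obtain ⟨u, hu, hlim⟩ := hw
    refine ⟨fun n => VT.mk (u n) (subset_closure (hu n)), fun n => ?_, ?_⟩
    · exact hu n
    · rw [VT.tendsto_iff]
      exact hlim
  have : closure {w : VT K | ∃ x : ι →₀ ℝ, ∀ φ : K, ev φ w = pair φ x} ⊆
      {w : VT K | f w = g w} := hd.closure_subset_iff.2 fun w hw => h w hw
  exact this (hdense v)

section norming
variable [LinearOrder ι] {K : Set (ι →₀ ℚ)} {m : ℕ → ℚ}

/-- the vector of `V` given by a finitely supported real vector -/
noncomputable def toV (hK : Norming K m) (x : ι →₀ ℝ) : VT K :=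
  ⟨⟨fun φ => pair φ x, by
    refine memℓp_infty ⟨x.sum fun _ r => |r|, ?_⟩
    rintro _ ⟨φ, rfl⟩
    simp only [Real.norm_eq_abs]
    unfold pair Finsupp.sum
    refine (Finset.abs_sum_le_sum_abs _ _).trans (Finset.sum_le_sum fun a _ => ?_)
    rw [abs_mul]
    have h1 : |((φ : ι →₀ ℚ) a : ℝ)| ≤ 1 := by
      have := hK.abs_le φ φ.2 a
      rw [← Rat.cast_abs]
      exact_mod_cast this
    calc _ ≤ 1 * |x a| := mul_le_mul_of_nonneg_right h1 (abs_nonneg _)
      _ = _ := one_mul _⟩, subset_closure ⟨x, fun _ => rfl⟩⟩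

theorem ev_toV (hK : Norming K m) (x : ι →₀ ℝ) (φ : K) : ev φ (toV hK x) = pair φ x := rfl

omit [LinearOrder ι] in
theorem ext_ev {v w : VT K} (h : ∀ φ : K, ev φ v = ev φ w) : v = w := by
  apply Subtype.ext
  apply lp.ext
  funext φ
  exact h φ

theorem toV_add (hK : Norming K m) (x y : ι →₀ ℝ) : toV hK (x + y) = toV hK x + toV hK y :=
  ext_ev fun φ => by rw [map_add, ev_toV, ev_toV, ev_toV, pair_add]

theorem toV_smul (hK : Norming K m) (c : ℝ) (x : ι →₀ ℝ) : toV hK (c • x) = c • toV hK x :=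
  ext_ev fun φ => by rw [map_smul, ev_toV, ev_toV, pair_smul, smul_eq_mul]

/-- `toV` as a linear map -/
noncomputable def toVₗ (hK : Norming K m) : (ι →₀ ℝ) →ₗ[ℝ] VT K where
  toFun := toV hK
  map_add' := toV_add hK
  map_smul' := toV_smul hK

theorem toVₗ_apply (hK : Norming K m) (x : ι →₀ ℝ) : toVₗ hK x = toV hK x := rfl

/-- the finitely supported vectors are dense -/
theorem dense_toV (hK : Norming K m) : DenseRange (toV hK) := by
  intro w
  have hw : w.amb ∈ closure (fin K : Set (Amb K)) := w.2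
  rw [mem_closure_iff_seq_limit] at hw ⊢
  obtain ⟨u, hu, hlim⟩ := hw
  refine ⟨fun n => VT.mk (u n) (subset_closure (hu n)), fun n => ?_, ?_⟩
  · obtain ⟨x, hx⟩ := hu n
    refine ⟨x, ext_ev fun φ => ?_⟩
    rw [ev_toV, ← hx]
    rfl
  · rw [VT.tendsto_iff]
    exact hlim

theorem exists_toV_near (hK : Norming K m) (v : VT K) {ε : ℝ} (hε : 0 < ε) :
    ∃ x, ‖v - toV hK x‖ < ε := by
  obtain ⟨_, ⟨x, rfl⟩, hx⟩ := Metric.mem_closure_iff.1 (dense_toV hK v) ε hε
  exact ⟨x, by rwa [← dist_eq_norm]⟩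

theorem clm_ext (hK : Norming K m) {E : Type*} [NormedAddCommGroup E] [NormedSpace ℝ E]
    {f g : VT K →L[ℝ] E} (h : ∀ x, f (toV hK x) = g (toV hK x)) : f = g := by
  apply ContinuousLinearMap.ext
  intro v
  exact (dense_toV hK).equalizer f.continuous g.continuous (funext h) |> congrFun <| v

/-- the coordinate functionals -/
noncomputable def coord (hK : Norming K m) (a : ι) : VT K →L[ℝ] ℝ :=
  ev ⟨Finsupp.single a 1, hK.single_mem a⟩

theorem coord_toV (hK : Norming K m) (a : ι) (x : ι →₀ ℝ) : coord hK a (toV hK x) = x a := by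
  rw [coord, ev_toV, pair_comm, Finsupp.sum_single_index (by simp)]
  simp

/-- any finitely supported rational functional as a functional on `V` -/
noncomputable def toD (hK : Norming K m) (φ : ι →₀ ℚ) : VT K →L[ℝ] ℝ :=
  φ.sum fun a q => (q : ℝ) • coord hK a

theorem toD_toV (hK : Norming K m) (φ : ι →₀ ℚ) (x : ι →₀ ℝ) :
    toD hK φ (toV hK x) = pair φ x := by
  rw [pair_comm]
  unfold toD Finsupp.sum
  simp only [FunLike.coe_sum, Finset.sum_apply, FunLike.coe_smul,
    Pi.smul_apply, smul_eq_mul, coord_toV]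

theorem toD_apply (hK : Norming K m) (φ : ι →₀ ℚ) (v : VT K) :
    toD hK φ v = φ.sum fun a q => (q : ℝ) * coord hK a v := by
  unfold toD Finsupp.sum
  simp only [FunLike.coe_sum, Finset.sum_apply, FunLike.coe_smul,
    Pi.smul_apply, smul_eq_mul]

theorem toD_eq_ev (hK : Norming K m) {φ : ι →₀ ℚ} (hφ : φ ∈ K) : toD hK φ = ev ⟨φ, hφ⟩ :=
  clm_ext hK fun x => by rw [toD_toV, ev_toV]

theorem toD_add (hK : Norming K m) (φ ψ : ι →₀ ℚ) : toD hK (φ + ψ) = toD hK φ + toD hK ψ := by
  classical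
  unfold toD
  exact Finsupp.sum_add_index (by simp) (by intros; push_cast; rw [add_smul])

theorem toD_zero (hK : Norming K m) : toD hK 0 = 0 := by
  unfold toD; exact Finsupp.sum_zero_index

theorem toD_smul (hK : Norming K m) (c : ℚ) (φ : ι →₀ ℚ) :
    toD hK (c • φ) = (c : ℝ) • toD hK φ := by
  classical
  unfold toD
  rw [Finsupp.sum_smul_index (by simp), Finsupp.smul_sum]
  refine Finsupp.sum_congr fun a _ => ?_
  push_cast
  rw [mul_smul]

theorem toD_neg (hK : Norming K m) (φ : ι →₀ ℚ) : toD hK (-φ) = -toD hK φ := by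
  have h : -φ = (-1 : ℚ) • φ := by simp
  rw [h, toD_smul]
  ext v
  simp

theorem toD_list_sum (hK : Norming K m) (l : List (ι →₀ ℚ)) :
    toD hK l.sum = (l.map (toD hK)).sum := by
  induction l with
  | nil => simp [toD_zero]
  | cons a l ih => rw [List.sum_cons, toD_add, ih, List.map_cons, List.sum_cons]

theorem abs_toD_le (hK : Norming K m) {φ : ι →₀ ℚ} (hφ : φ ∈ K) (v : VT K) :
    |toD hK φ v| ≤ ‖v‖ := by
  rw [toD_eq_ev hK hφ]
  exact abs_ev_le _ _

theorem norm_toD_le (hK : Norming K m) {φ : ι →₀ ℚ} (hφ : φ ∈ K) : ‖toD hK φ‖ ≤ 1 := by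
  rw [toD_eq_ev hK hφ]
  exact norm_ev_le _

theorem norm_le (hK : Norming K m) (v : VT K) {C : ℝ} (h : ∀ φ ∈ K, toD hK φ v ≤ C) :
    ‖v‖ ≤ C := by
  have h' : ∀ φ : K, |ev φ v| ≤ C := by
    intro φ
    rw [← toD_eq_ev hK φ.2]
    refine abs_le'.2 ⟨h φ φ.2, ?_⟩
    have := h (-φ) (hK.neg_mem φ φ.2)
    rw [toD_neg] at this
    exact this
  rcases isEmpty_or_nonempty K with h0 | ⟨⟨φ⟩⟩
  · by_cases hι : Nonempty ι
    · exact h0.elim ⟨_, hK.single_mem hι.some⟩
    · exfalso
      have : (0 : ι →₀ ℚ) ∈ K := by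
        have := hK.avg_mem 2 le_rfl [] (by simp) (by simp) List.Pairwise.nil
        simpa using this
      exact h0.elim ⟨_, this⟩
  · exact norm_le_of_ev v ((abs_nonneg _).trans (h' φ)) h'

/-- an almost norming functional -/
theorem exists_toD_gt (hK : Norming K m) (v : VT K) {ε : ℝ} (hε : 0 < ε) :
    ∃ φ ∈ K, ‖v‖ - ε < toD hK φ v := by
  by_contra h
  push Not at h
  have := norm_le hK v h
  linarith

theorem zero_mem (hK : Norming K m) : (0 : ι →₀ ℚ) ∈ K := by
  have := hK.avg_mem 2 le_rfl [] (by simp) (by simp) List.Pairwise.nil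
  simpa using this

theorem norm_toV_le (hK : Norming K m) (x : ι →₀ ℝ) {C : ℝ} (h : ∀ φ ∈ K, pair φ x ≤ C) :
    ‖toV hK x‖ ≤ C :=
  norm_le hK _ fun φ hφ => by rw [toD_toV]; exact h φ hφ

theorem pair_le_norm (hK : Norming K m) {φ : ι →₀ ℚ} (hφ : φ ∈ K) (x : ι →₀ ℝ) :
    |pair φ x| ≤ ‖toV hK x‖ := by
  rw [← toD_toV hK]
  exact abs_toD_le hK hφ _

/-! ### interval projections -/

omit [LinearOrder ι] in
open Classical in
theorem pair_res (I : Set ι) (φ : ι →₀ ℚ) (x : ι →₀ ℝ) :
    pair (res I φ) x = pair φ (x.filter (· ∈ I)) := by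
  unfold pair res
  rw [Finsupp.sum_filter_index, Finsupp.support_filter, Finset.sum_filter]
  unfold Finsupp.sum
  refine Finset.sum_congr rfl fun a _ => ?_
  simp only [Finsupp.filter_apply]
  split_ifs <;> simp

/-- the ambient projection -/
noncomputable def projA (hK : Norming K m) (I : Set ι) (hI : I.OrdConnected) :
    Amb K →L[ℝ] Amb K :=
  LinearMap.mkContinuous
    { toFun := fun v => ⟨fun φ => v ⟨res I φ, hK.res_mem φ φ.2 I hI⟩, by
        refine memℓp_infty ⟨‖v‖, ?_⟩
        rintro _ ⟨φ, rfl⟩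
        exact lp.norm_apply_le_norm (by simp) v _⟩
      map_add' := fun v w => rfl
      map_smul' := fun c v => rfl } 1
    (fun v => by
      rw [one_mul]
      exact lp.norm_le_of_forall_le (norm_nonneg _) fun φ =>
        lp.norm_apply_le_norm (by simp) v _)

theorem projA_apply (hK : Norming K m) (I : Set ι) (hI : I.OrdConnected) (v : Amb K) (φ : K) :
    projA hK I hI v φ = v ⟨res I φ, hK.res_mem φ φ.2 I hI⟩ := rfl

theorem projA_mem (hK : Norming K m) (I : Set ι) (hI : I.OrdConnected) (v : Amb K)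
    (hv : v ∈ VV K) : projA hK I hI v ∈ VV K := by
  classical
  have h1 : Set.MapsTo (projA hK I hI) (fin K : Set (Amb K)) (fin K : Set (Amb K)) := by
    rintro w ⟨x, hx⟩
    refine ⟨x.filter (· ∈ I), fun φ => ?_⟩
    rw [projA_apply, hx, pair_res]
  exact h1.closure (projA hK I hI).continuous hv

/-- the projection onto the coordinates in the interval `I` -/
noncomputable def proj (hK : Norming K m) (I : Set ι) (hI : I.OrdConnected) :
    VT K →L[ℝ] VT K :=
  ((projA hK I hI).comp (VV K).subtypeL).codRestrict (VV K) fun v =>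
    projA_mem hK I hI v v.2

theorem ev_proj (hK : Norming K m) (I : Set ι) (hI : I.OrdConnected) (v : VT K) (φ : K) :
    ev φ (proj hK I hI v) = ev ⟨res I φ, hK.res_mem φ φ.2 I hI⟩ v := rfl

open Classical in
theorem proj_toV (hK : Norming K m) (I : Set ι) (hI : I.OrdConnected) (x : ι →₀ ℝ) :
    proj hK I hI (toV hK x) = toV hK (x.filter (· ∈ I)) :=
  ext_ev fun φ => by rw [ev_proj, ev_toV, ev_toV, pair_res]

theorem toD_proj (hK : Norming K m) (I : Set ι) (hI : I.OrdConnected) (φ : ι →₀ ℚ) (v : VT K) :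
    toD hK φ (proj hK I hI v) = toD hK (res I φ) v := by
  classical
  have : (toD hK φ).comp (proj hK I hI) = toD hK (res I φ) :=
    clm_ext hK fun x => by
      rw [ContinuousLinearMap.comp_apply, proj_toV, toD_toV, toD_toV, pair_res]
  rw [← this]; rfl

theorem norm_proj_le (hK : Norming K m) (I : Set ι) (hI : I.OrdConnected) (v : VT K) :
    ‖proj hK I hI v‖ ≤ ‖v‖ :=
  norm_le_of_ev _ (norm_nonneg _) fun φ => by
    rw [ev_proj]
    exact abs_ev_le _ _

omit [LinearOrder ι] in
theorem res_res (I J : Set ι) (φ : ι →₀ ℚ) : res I (res J φ) = res (I ∩ J) φ := by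
  classical
  ext a
  unfold res
  simp only [Finsupp.filter_apply, Set.mem_inter_iff]
  by_cases h1 : a ∈ I <;> by_cases h2 : a ∈ J <;> simp [h1, h2]

theorem proj_proj (hK : Norming K m) (I J : Set ι) (hI : I.OrdConnected) (hJ : J.OrdConnected)
    (v : VT K) :
    proj hK I hI (proj hK J hJ v) = proj hK (I ∩ J) (hI.inter hJ) v := by
  refine ext_ev fun φ => ?_
  rw [ev_proj, ev_proj, ev_proj]
  congr 1
  · congr 1
    apply Subtype.ext
    show res J (res I φ) = res (I ∩ J) φ
    rw [res_res, Set.inter_comm]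

theorem proj_add_proj (hK : Norming K m) {I J U : Set ι} (hI : I.OrdConnected)
    (hJ : J.OrdConnected) (hU : U.OrdConnected) (hd : Disjoint I J) (hu : I ∪ J = U)
    (v : VT K) : proj hK I hI v + proj hK J hJ v = proj hK U hU v := by
  classical
  have : proj hK I hI + proj hK J hJ = proj hK U hU :=
    clm_ext hK fun x => by
      rw [add_apply, proj_toV, proj_toV, proj_toV, ← toV_add]
      congr 1
      ext a
      simp only [Finsupp.add_apply, Finsupp.filter_apply, ← hu, Set.mem_union]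
      by_cases h1 : a ∈ I
      · have h2 : a ∉ J := fun h2 => (Set.disjoint_left.1 hd h1 h2)
        simp [h1, h2]
      · simp [h1]
  rw [← this]; rfl

omit [LinearOrder ι] in
theorem list_range_sum_apply (f : ℕ → VT K →L[ℝ] ℝ) (d : ℕ) (v : VT K) :
    ((List.range d).map f).sum v = ∑ i ∈ Finset.range d, f i v := by
  induction d with
  | zero => simp
  | succ d ih =>
    rw [List.range_succ, List.map_append, List.sum_append, add_apply, ih,
      Finset.sum_range_succ]
    simp

/-- **Estimate (E).** -/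
theorem sum_norm_proj_le (hK : Norming K m) (hm : ∀ n, 2 ≤ n → 0 < m n) {n : ℕ} (hn : 2 ≤ n)
    {d : ℕ} (hd : d ≤ n) (I : ℕ → Set ι) (hI : ∀ i, (I i).OrdConnected)
    (hsucc : ∀ i j, i < j → j < d → ∀ a ∈ I i, ∀ b ∈ I j, a < b) (v : VT K) :
    ∑ i ∈ Finset.range d, ‖proj hK (I i) (hI i) v‖ ≤ m n * ‖v‖ := by
  classical
  have hmn : (0 : ℝ) < m n := by exact_mod_cast hm n hn
  refine le_of_forall_pos_le_add fun ε hε => ?_
  have hδ : 0 < ε / (d + 1) := by positivity
  have h1 : ∀ i, ∃ φ ∈ K, ‖proj hK (I i) (hI i) v‖ - ε / (d + 1) <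
      toD hK φ (proj hK (I i) (hI i) v) := fun i => exists_toD_gt hK _ hδ
  choose φ hφ hgt using h1
  let l : List (ι →₀ ℚ) := (List.range d).map fun i => res (I i) (φ i)
  have hl : (m n)⁻¹ • l.sum ∈ K := by
    refine hK.avg_mem n hn l (by simp [l, hd]) ?_ ?_
    · intro ψ hψ
      obtain ⟨i, _, rfl⟩ := List.mem_map.1 hψ
      exact hK.res_mem _ (hφ i) _ (hI i)
    · rw [List.pairwise_map]
      refine List.Pairwise.imp_of_mem ?_ (List.pairwise_lt_range)
      intro i j _ hj hij a ha b hb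
      unfold res at ha hb
      rw [Finsupp.support_filter, Finset.mem_filter] at ha hb
      exact hsucc i j hij (List.mem_range.1 hj) a ha.2 b hb.2
  have h2 := abs_toD_le hK hl v
  have h3 : toD hK ((m n)⁻¹ • l.sum) v =
      (m n : ℝ)⁻¹ * ∑ i ∈ Finset.range d, toD hK (φ i) (proj hK (I i) (hI i) v) := by
    rw [toD_smul, toD_list_sum]
    simp only [FunLike.coe_smul, Pi.smul_apply, smul_eq_mul, Rat.cast_inv]
    congr 1
    simp only [l, List.map_map]
    rw [list_range_sum_apply]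
    refine Finset.sum_congr rfl fun i _ => ?_
    rw [toD_proj]
    rfl
  have h4 : ∑ i ∈ Finset.range d, (‖proj hK (I i) (hI i) v‖ - ε / (d + 1)) ≤
      ∑ i ∈ Finset.range d, toD hK (φ i) (proj hK (I i) (hI i) v) :=
    Finset.sum_le_sum fun i _ => (hgt i).le
  rw [Finset.sum_sub_distrib, Finset.sum_const, Finset.card_range, nsmul_eq_mul] at h4
  have h5 : (d : ℝ) * (ε / (d + 1)) ≤ ε := by
    rw [mul_div_assoc', div_le_iff₀ (by positivity)]
    nlinarith
  have h6 : ∑ i ∈ Finset.range d, toD hK (φ i) (proj hK (I i) (hI i) v) ≤ m n * ‖v‖ := by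
    rw [h3] at h2
    have h7 := (le_abs_self _).trans h2
    rwa [inv_mul_le_iff₀ hmn] at h7
  linarith

end norming

end Vale.Agent.P129.H630
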