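import Vale.Agent.P129.H448.Defs
import Vale.Agent.P129.H630.NormV

/-!
P129, part B: basic facts about the norming set `K` and the norm `nrm`.
-/

open Finset

namespace Vale.Agent.P129.B

open H448

/-! ### weights -/

theorem fw_pos (n : ℕ) : 0 < fw n := by unfold fw; omega

theorem fw_mono : Monotone fw := fun _ _ h => by
  unfold fw
  have := Nat.log_mono_right (b := 2) h
  omega

theorem m_mono : Monotone m := fun _ _ h => Nat.mul_le_mul_left 64 (fw_mono h)

theorem le_m (n : ℕ) : 64 ≤ m n := by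
  unfold m
  have := fw_pos n
  omega

theorem m_pos (n : ℕ) : 0 < m n := lt_of_lt_of_le (by norm_num) (le_m n)

theorem m_cast_pos (n : ℕ) : (0 : ℝ) < m n := by exact_mod_cast m_pos n

theorem one_le_m_cast (n : ℕ) : (1 : ℝ) ≤ m n := by exact_mod_cast (m_pos n)

theorem ell_succ (j : ℕ) : ell (j + 1) = 2 ^ ell j := rfl

theorem m_ell_succ (j : ℕ) : m (ell (j + 1)) = 64 * (1 + ell j) := by
  unfold m fw
  rw [ell_succ, Nat.log_pow (by norm_num)]

theorem ell_pos (j : ℕ) : 0 < ell j := by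
  cases j with
  | zero => exact Nat.pow_pos (by norm_num)
  | succ j => exact Nat.pow_pos (by norm_num)

theorem ell_lt_succ (j : ℕ) : ell j < ell (j + 1) := Nat.lt_two_pow_self

theorem ell_strictMono : StrictMono ell := strictMono_nat_of_lt_succ ell_lt_succ

theorem two_le_ell (j : ℕ) : 2 ≤ ell j := by
  have h : 2 ≤ ell 0 := by
    show 2 ≤ 2 ^ 1000
    calc 2 = 2 ^ 1 := by norm_num
      _ ≤ 2 ^ 1000 := Nat.pow_le_pow_right (by norm_num) (by norm_num)
  exact h.trans (ell_strictMono.monotone (Nat.zero_le j))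

theorem lt_ell (j : ℕ) : j < ell j := by
  induction j with
  | zero => exact ell_pos 0
  | succ j ih => exact lt_of_le_of_lt ih (ell_lt_succ j)

theorem lt_m_ell (j : ℕ) : j < m (ell j) := by
  cases j with
  | zero => exact m_pos _
  | succ j =>
    rw [m_ell_succ]
    have := lt_ell j
    omega

/-! ### restriction -/

section res
variable {R : Type}

theorem res_apply [Zero R] (I : Set W) (x : W →₀ R) (a : W) [Decidable (a ∈ I)] :
    res I x a = if a ∈ I then x a else 0 := by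
  unfold res
  rw [Finsupp.filter_apply]
  split_ifs <;> rfl

theorem res_apply_of_mem [Zero R] {I : Set W} (x : W →₀ R) {a : W} (h : a ∈ I) :
    res I x a = x a := by
  classical
  rw [res_apply, if_pos h]

theorem res_apply_of_notMem [Zero R] {I : Set W} (x : W →₀ R) {a : W} (h : a ∉ I) :
    res I x a = 0 := by
  classical
  rw [res_apply, if_neg h]

theorem mem_support_res [Zero R] (I : Set W) (x : W →₀ R) (a : W) :
    a ∈ (res I x).support ↔ a ∈ x.support ∧ a ∈ I := by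
  classical
  rw [Finsupp.mem_support_iff, Finsupp.mem_support_iff, res_apply]
  by_cases h : a ∈ I <;> simp [h]

theorem support_res_subset [Zero R] (I : Set W) (x : W →₀ R) :
    (res I x).support ⊆ x.support := fun a ha => ((mem_support_res I x a).1 ha).1

theorem res_zero [Zero R] (I : Set W) : res I (0 : W →₀ R) = 0 := by
  classical
  ext a
  rw [res_apply]
  simp

theorem res_add [AddZeroClass R] (I : Set W) (x y : W →₀ R) :
    res I (x + y) = res I x + res I y := by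
  classical
  ext a
  rw [Finsupp.add_apply, res_apply, res_apply, res_apply, Finsupp.add_apply]
  by_cases h : a ∈ I <;> simp [h]

theorem res_smul {M : Type*} [Zero R] [SMulZeroClass M R] (I : Set W) (c : M) (x : W →₀ R) :
    res I (c • x) = c • res I x := by
  classical
  ext a
  rw [Finsupp.smul_apply, res_apply, res_apply, Finsupp.smul_apply]
  by_cases h : a ∈ I <;> simp [h]

theorem res_neg [AddGroup R] (I : Set W) (x : W →₀ R) : res I (-x) = -res I x := by
  classical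
  ext a
  rw [Finsupp.neg_apply, res_apply, res_apply, Finsupp.neg_apply]
  by_cases h : a ∈ I <;> simp [h]

theorem res_sub [AddGroup R] (I : Set W) (x y : W →₀ R) :
    res I (x - y) = res I x - res I y := by
  classical
  ext a
  rw [Finsupp.sub_apply, res_apply, res_apply, res_apply, Finsupp.sub_apply]
  by_cases h : a ∈ I <;> simp [h]

theorem res_sum [AddCommMonoid R] {κ : Type*} (I : Set W) (t : Finset κ) (x : κ → W →₀ R) :
    res I (∑ i ∈ t, x i) = ∑ i ∈ t, res I (x i) := by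
  classical
  induction t using Finset.induction_on with
  | empty => simp [res_zero]
  | insert a t ha ih => rw [Finset.sum_insert ha, Finset.sum_insert ha, res_add, ih]

theorem res_res [Zero R] (I J : Set W) (x : W →₀ R) : res I (res J x) = res (I ∩ J) x := by
  classical
  ext a
  rw [res_apply, res_apply, res_apply]
  by_cases h : a ∈ I <;> by_cases h' : a ∈ J <;> simp [h, h']

theorem res_eq_self [Zero R] {I : Set W} {x : W →₀ R} (h : ∀ a ∈ x.support, a ∈ I) :
    res I x = x := by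
  classical
  ext a
  rw [res_apply]
  by_cases h' : a ∈ I
  · rw [if_pos h']
  · rw [if_neg h']
    by_contra h2
    exact h' (h a (Finsupp.mem_support_iff.2 (Ne.symm h2)))

theorem res_eq_zero [Zero R] {I : Set W} {x : W →₀ R} (h : ∀ a ∈ x.support, a ∉ I) :
    res I x = 0 := by
  classical
  ext a
  rw [res_apply]
  by_cases h' : a ∈ I
  · rw [if_pos h']
    by_contra h2
    exact h a (Finsupp.mem_support_iff.2 h2) h'
  · rw [if_neg h', Finsupp.zero_apply]

theorem res_univ [Zero R] (x : W →₀ R) : res Set.univ x = x :=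
  res_eq_self fun a _ => Set.mem_univ a

theorem res_single_of_mem [Zero R] {I : Set W} {a : W} (h : a ∈ I) (r : R) :
    res I (Finsupp.single a r) = Finsupp.single a r := by
  classical
  refine res_eq_self fun b hb => ?_
  have := Finsupp.support_single_subset hb
  rw [Finset.mem_singleton] at this
  rwa [this]

theorem res_single_of_notMem [Zero R] {I : Set W} {a : W} (h : a ∉ I) (r : R) :
    res I (Finsupp.single a r) = 0 := by
  classical
  refine res_eq_zero fun b hb => ?_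
  have := Finsupp.support_single_subset hb
  rw [Finset.mem_singleton] at this
  rwa [this]

end res

theorem SLt.mono {s t s' t' : Finset W} (h : SLt s t) (hs : s' ⊆ s) (ht : t' ⊆ t) : SLt s' t' :=
  fun a ha b hb => h a (hs ha) b (ht hb)

theorem SLt.res {R : Type} [Zero R] {x y : W →₀ R} (h : SLt x.support y.support) (I J : Set W) :
    SLt (res I x).support (H448.res J y).support :=
  SLt.mono h (support_res_subset _ _) (support_res_subset _ _)

/-! ### the action of functionals -/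

theorem ap_eq (φ : Fn) (x : Vec) : ap φ x = x.sum fun a r => r * (φ a : ℝ) := by
  unfold ap pr
  rw [Finsupp.linearCombination_apply]
  rfl

theorem ap_eq_pair (φ : Fn) (x : Vec) : ap φ x = H630.pair φ x := by
  rw [ap_eq]
  unfold H630.pair
  exact Finsupp.sum_congr fun a _ => mul_comm _ _

/-- the action of a functional on a vector as a sum over any finite set containing the support
of the vector -/
theorem ap_eq_sum (φ : Fn) (x : Vec) {t : Finset W} (ht : x.support ⊆ t) :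
    ap φ x = ∑ a ∈ t, x a * (φ a : ℝ) := by
  rw [ap_eq]
  exact Finsupp.sum_of_support_subset _ ht _ (by simp)

theorem ap_eq_sum' (φ : Fn) (x : Vec) {t : Finset W} (ht : φ.support ⊆ t) :
    ap φ x = ∑ a ∈ t, x a * (φ a : ℝ) := by
  classical
  rw [ap_eq_sum φ x (Finset.subset_union_left (s₁ := x.support) (s₂ := t))]
  symm
  refine Finset.sum_subset Finset.subset_union_right fun a _ ha => ?_
  have : φ a = 0 := by
    by_contra h
    exact ha (ht (Finsupp.mem_support_iff.2 h))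
  rw [this]
  simp

theorem ap_add (φ : Fn) (x y : Vec) : ap φ (x + y) = ap φ x + ap φ y := map_add _ _ _

theorem ap_sub (φ : Fn) (x y : Vec) : ap φ (x - y) = ap φ x - ap φ y := map_sub _ _ _

theorem ap_neg (φ : Fn) (x : Vec) : ap φ (-x) = -ap φ x := map_neg _ _

theorem ap_smul (φ : Fn) (c : ℝ) (x : Vec) : ap φ (c • x) = c * ap φ x := map_smul _ _ _

theorem ap_zero (φ : Fn) : ap φ 0 = 0 := map_zero _

theorem ap_sum {κ : Type*} (φ : Fn) (t : Finset κ) (x : κ → Vec) :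
    ap φ (∑ i ∈ t, x i) = ∑ i ∈ t, ap φ (x i) := map_sum _ _ _

theorem zero_ap (x : Vec) : ap 0 x = 0 := by
  rw [ap_eq_sum 0 x subset_rfl]
  simp

theorem add_ap (φ ψ : Fn) (x : Vec) : ap (φ + ψ) x = ap φ x + ap ψ x := by
  rw [ap_eq_sum _ x subset_rfl, ap_eq_sum _ x subset_rfl, ap_eq_sum _ x subset_rfl,
    ← Finset.sum_add_distrib]
  refine Finset.sum_congr rfl fun a _ => ?_
  rw [Finsupp.add_apply]
  push_cast
  ring

theorem smul_ap (c : ℚ) (φ : Fn) (x : Vec) : ap (c • φ) x = c * ap φ x := by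
  rw [ap_eq_sum _ x subset_rfl, ap_eq_sum _ x subset_rfl, Finset.mul_sum]
  refine Finset.sum_congr rfl fun a _ => ?_
  rw [Finsupp.smul_apply, smul_eq_mul]
  push_cast
  ring

theorem neg_ap (φ : Fn) (x : Vec) : ap (-φ) x = -ap φ x := by
  have : -φ = (-1 : ℚ) • φ := by simp
  rw [this, smul_ap]
  push_cast
  ring

theorem sum_ap {κ : Type*} (t : Finset κ) (φ : κ → Fn) (x : Vec) :
    ap (∑ i ∈ t, φ i) x = ∑ i ∈ t, ap (φ i) x := by
  classical
  induction t using Finset.induction_on with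
  | empty => simp [zero_ap]
  | insert a t ha ih => rw [Finset.sum_insert ha, Finset.sum_insert ha, add_ap, ih]

theorem ap_res (φ : Fn) (I : Set W) (x : Vec) : ap φ (res I x) = ap (res I φ) x := by
  classical
  rw [ap_eq_sum φ _ (support_res_subset I x), ap_eq_sum _ x subset_rfl]
  refine Finset.sum_congr rfl fun a _ => ?_
  rw [res_apply, res_apply]
  by_cases h : a ∈ I <;> simp [h]

theorem ap_single (φ : Fn) (a : W) (r : ℝ) : ap φ (Finsupp.single a r) = r * φ a := by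
  rw [ap_eq, Finsupp.sum_single_index (by simp)]

theorem single_ap (a : W) (q : ℚ) (x : Vec) : ap (Finsupp.single a q) x = q * x a := by
  rw [ap_eq_sum' _ x Finsupp.support_single_subset, Finset.sum_singleton, Finsupp.single_eq_same]
  ring

/-- the action vanishes if the supports are disjoint -/
theorem ap_eq_zero {φ : Fn} {x : Vec} (h : ∀ a ∈ φ.support, a ∉ x.support) : ap φ x = 0 := by
  rw [ap_eq_sum' φ x subset_rfl]
  refine Finset.sum_eq_zero fun a ha => ?_
  rw [Finsupp.notMem_support_iff.1 (h a ha), zero_mul]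

/-! ### stages -/

theorem Kst_subset_succ (s : ℕ) : Kst s ⊆ Kst (s + 1) := fun _ hφ => Or.inl (Or.inl hφ)

theorem Kst_mono {s t : ℕ} (h : s ≤ t) : Kst s ⊆ Kst t := by
  induction h with
  | refl => exact subset_rfl
  | step _ ih => exact ih.trans (Kst_subset_succ _)

theorem Kst_subset_K (s : ℕ) : Kst s ⊆ K := Set.subset_iUnion Kst s

theorem mem_K {φ : Fn} : φ ∈ K ↔ ∃ s, φ ∈ Kst s := Set.mem_iUnion

theorem zero_mem_Kst (s : ℕ) : (0 : Fn) ∈ Kst s := Kst_mono (Nat.zero_le s) (Or.inl rfl)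

theorem zero_mem_K : (0 : Fn) ∈ K := Kst_subset_K 0 (zero_mem_Kst 0)

theorem single_mem_K (a : W) : Finsupp.single a (1 : ℚ) ∈ K :=
  Kst_subset_K 0 (Or.inr ⟨a, Or.inl rfl⟩)

theorem single_neg_mem_K (a : W) : Finsupp.single a (-1 : ℚ) ∈ K :=
  Kst_subset_K 0 (Or.inr ⟨a, Or.inr rfl⟩)

section mono
variable {A A' : Set Fn}

theorem Wtd_mono (h : A ⊆ A') (n : ℕ) : Wtd A n ⊆ Wtd A' n := by
  rintro φ ⟨d, ψ, hd, hψ, hs, rfl⟩
  exact ⟨d, ψ, hd, fun i hi => h (hψ i hi), hs, rfl⟩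

theorem IsSpecial.mono {Φ : ℕ → Node} {n : ℕ} (hs : IsSpecial A Φ n) (h : A ⊆ A') :
    IsSpecial A' Φ n := ⟨hs.cod, fun k hk => Wtd_mono h _ (hs.wtd k hk)⟩

theorem Ok.mono {s : Seg} (hs : s.Ok A) (h : A ⊆ A') : s.Ok A' :=
  ⟨IsSpecial.mono hs.sp h, hs.hJ, hs.hI⟩

theorem Adm.mono {lo N : ℕ} {s : ℕ → Seg} {ε : ℕ → ℚ} (hs : Adm A lo N s ε) (h : A ⊆ A') :
    Adm A' lo N s ε := ⟨fun r hr => Ok.mono (hs.ok r hr) h, hs.sign, hs.disj, hs.card, hs.low⟩

theorem Adm.mono_lo {lo lo' N : ℕ} {s : ℕ → Seg} {ε : ℕ → ℚ} (hs : Adm A lo N s ε)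
    (h : lo' ≤ lo) : Adm A lo' N s ε :=
  ⟨hs.ok, hs.sign, hs.disj, hs.card, fun r hr w hw => h.trans (hs.low r hr w hw)⟩

theorem Sums_mono (h : A ⊆ A') {lo lo' : ℕ} (hlo : lo' ≤ lo) : Sums A lo ⊆ Sums A' lo' := by
  rintro φ ⟨N, s, ε, hs, rfl⟩
  exact ⟨N, s, ε, Adm.mono_lo (Adm.mono hs h) hlo, rfl⟩

end mono

/-- finitely many stages are contained in one -/
theorem exists_stage {d : ℕ} {P : ℕ → ℕ → Prop} (hP : ∀ i s t, s ≤ t → P i s → P i t)
    (h : ∀ i < d, ∃ s, P i s) : ∃ s, ∀ i < d, P i s := by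
  induction d with
  | zero => exact ⟨0, fun i hi => absurd hi (Nat.not_lt_zero i)⟩
  | succ d ih =>
    obtain ⟨s, hs⟩ := ih fun i hi => h i (by omega)
    obtain ⟨t, ht⟩ := h d (Nat.lt_succ_self d)
    refine ⟨max s t, fun i hi => ?_⟩
    rcases (show i ≤ d by omega).lt_or_eq with h1 | rfl
    · exact hP i s _ (le_max_left _ _) (hs i h1)
    · exact hP i t _ (le_max_right _ _) ht

theorem exists_stage_Wtd {n : ℕ} {φ : Fn} (h : φ ∈ Wtd K n) : ∃ s, φ ∈ Wtd (Kst s) n := by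
  obtain ⟨d, ψ, hd, hψ, hs, rfl⟩ := h
  obtain ⟨s, hs'⟩ := exists_stage (d := d) (P := fun i s => ψ i ∈ Kst s)
    (fun i s t hst hi => Kst_mono hst hi) (fun i hi => mem_K.1 (hψ i hi))
  exact ⟨s, d, ψ, hd, hs', hs, rfl⟩

theorem IsSpecial.exists_stage {Φ : ℕ → Node} {n : ℕ} (h : IsSpecial K Φ n) :
    ∃ s, IsSpecial (Kst s) Φ n := by
  obtain ⟨s, hs⟩ := B.exists_stage (d := n) (P := fun k s => (Φ k).φ ∈ Wtd (Kst s) (ell (Φ k).w))
    (fun i s t hst hi => Wtd_mono (Kst_mono hst) _ hi) (fun i hi => exists_stage_Wtd (h.wtd i hi))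
  exact ⟨s, h.cod, hs⟩

theorem Ok.exists_stage {s : Seg} (h : s.Ok K) : ∃ t, s.Ok (Kst t) := by
  obtain ⟨t, ht⟩ := IsSpecial.exists_stage h.sp
  exact ⟨t, ht, h.hJ, h.hI⟩

theorem Adm.exists_stage {lo N : ℕ} {s : ℕ → Seg} {ε : ℕ → ℚ} (h : Adm K lo N s ε) :
    ∃ t, Adm (Kst t) lo N s ε := by
  obtain ⟨t, ht⟩ := B.exists_stage (d := N) (P := fun r t => (s r).Ok (Kst t))
    (fun i s t hst hi => Ok.mono hi (Kst_mono hst)) (fun r hr => Ok.exists_stage (h.ok r hr))
  exact ⟨t, ht, h.sign, h.disj, h.card, h.low⟩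

theorem Wtd_subset_K {n : ℕ} (hn : 2 ≤ n) : Wtd K n ⊆ K := fun φ hφ => by
  obtain ⟨s, hs⟩ := exists_stage_Wtd hφ
  exact Kst_subset_K (s + 1) (Or.inl (Or.inr ⟨n, hn, hs⟩))

theorem Sums_subset_K (lo : ℕ) : Sums K lo ⊆ K := fun φ hφ => by
  obtain ⟨N, s, ε, h, rfl⟩ := Sums_mono subset_rfl (Nat.zero_le lo) hφ
  obtain ⟨t, ht⟩ := Adm.exists_stage h
  exact Kst_subset_K (t + 1) (Or.inr ⟨N, s, ε, ht, rfl⟩)

theorem Wtd_ell_subset_K (w : ℕ) : Wtd K (ell w) ⊆ K := Wtd_subset_K (two_le_ell w)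

/-- **Induction** over the norming set: to prove a property of all elements of `K`, it suffices to
prove it for `0`, the unit functionals, and for the averages and the admissible sums formed with
elements of `K` that have the property. -/
theorem K_induction {p : Fn → Prop} (h0 : p 0) (h1 : ∀ a, p (Finsupp.single a 1))
    (h1' : ∀ a, p (Finsupp.single a (-1)))
    (h2 : ∀ n, 2 ≤ n → ∀ φ ∈ Wtd {ψ | ψ ∈ K ∧ p ψ} n, p φ)
    (h3 : ∀ φ ∈ Sums {ψ | ψ ∈ K ∧ p ψ} 0, p φ) : ∀ φ ∈ K, p φ := by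
  have key : ∀ s, Kst s ⊆ {ψ | ψ ∈ K ∧ p ψ} := by
    intro s
    induction s with
    | zero =>
      intro φ hφ
      refine ⟨Kst_subset_K 0 hφ, ?_⟩
      rcases hφ with rfl | ⟨a, rfl | rfl⟩
      · exact h0
      · exact h1 a
      · exact h1' a
    | succ s ih =>
      intro φ hφ
      refine ⟨Kst_subset_K _ hφ, ?_⟩
      rcases hφ with (hφ | ⟨n, hn, hφ⟩) | hφ
      · exact (ih hφ).2
      · exact h2 n hn φ (Wtd_mono ih n hφ)
      · exact h3 φ (Sums_mono ih le_rfl hφ)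
  intro φ hφ
  obtain ⟨s, hs⟩ := mem_K.1 hφ
  exact (key s hs).2

/-! ### segments -/

/-- the segment cut to the weight window `J` and to the interval `I` -/
def cut (s : Seg) (J : Set ℕ) (I : Set W) : Seg := ⟨s.Φ, s.n, s.J ∩ J, I ∩ s.I⟩

theorem Ok.cut {A : Set Fn} {s : Seg} (h : s.Ok A) {J : Set ℕ} {I : Set W} (hJ : J.OrdConnected)
    (hI : I.OrdConnected) : (cut s J I).Ok A :=
  ⟨h.sp, h.hJ.inter hJ, hI.inter h.hI⟩

theorem mem_nodes {s : Seg} {k : ℕ} : k ∈ s.nodes ↔ k < s.n ∧ (s.Φ k).w ∈ s.J := by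
  classical
  unfold Seg.nodes
  rw [Finset.mem_filter, Finset.mem_range]

theorem mem_idx {s : Seg} {w : ℕ} : w ∈ s.idx ↔ ∃ k, k < s.n ∧ (s.Φ k).w ∈ s.J ∧ (s.Φ k).w = w := by
  classical
  unfold Seg.idx
  rw [Finset.mem_image]
  constructor
  · rintro ⟨k, hk, rfl⟩
    exact ⟨k, (mem_nodes.1 hk).1, (mem_nodes.1 hk).2, rfl⟩
  · rintro ⟨k, h1, h2, rfl⟩
    exact ⟨k, mem_nodes.2 ⟨h1, h2⟩, rfl⟩

theorem w_mem_idx {s : Seg} {k : ℕ} (hk : k ∈ s.nodes) : (s.Φ k).w ∈ s.idx :=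
  mem_idx.2 ⟨k, (mem_nodes.1 hk).1, (mem_nodes.1 hk).2, rfl⟩

theorem mem_nodes_cut {s : Seg} {J : Set ℕ} {I : Set W} {k : ℕ} :
    k ∈ (cut s J I).nodes ↔ k ∈ s.nodes ∧ (s.Φ k).w ∈ J := by
  rw [mem_nodes, mem_nodes]
  show k < s.n ∧ (s.Φ k).w ∈ s.J ∩ J ↔ _
  rw [Set.mem_inter_iff, and_assoc]

theorem mem_idx_cut {s : Seg} {J : Set ℕ} {I : Set W} {w : ℕ} :
    w ∈ (cut s J I).idx ↔ w ∈ s.idx ∧ w ∈ J := by
  rw [mem_idx, mem_idx]
  constructor
  · rintro ⟨k, h1, h2, rfl⟩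
    exact ⟨⟨k, h1, h2.1, rfl⟩, h2.2⟩
  · rintro ⟨⟨k, h1, h2, rfl⟩, h3⟩
    exact ⟨k, h1, ⟨h2, h3⟩, rfl⟩

theorem idx_cut_subset (s : Seg) (J : Set ℕ) (I : Set W) : (cut s J I).idx ⊆ s.idx :=
  fun _ hw => (mem_idx_cut.1 hw).1

theorem fn_eq_sum (s : Seg) : s.fn = ∑ k ∈ s.nodes, res s.I (s.Φ k).φ := by
  unfold Seg.fn
  rw [res_sum]

theorem res_fn (s : Seg) (I : Set W) : res I s.fn = (cut s Set.univ I).fn := by
  unfold Seg.fn
  rw [res_res]
  have : (cut s Set.univ I).nodes = s.nodes := by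
    ext k
    rw [mem_nodes_cut]
    simp
  rw [this]
  rfl

theorem ap_fn (s : Seg) (x : Vec) :
    ap s.fn x = ∑ k ∈ s.nodes, ap (res s.I (s.Φ k).φ) x := by
  rw [fn_eq_sum, sum_ap]

section adm
variable {A : Set Fn} {lo N : ℕ} {s : ℕ → Seg} {ε : ℕ → ℚ}

/-- cutting the segments of an admissible sum -/
theorem Adm.cut (h : Adm A lo N s ε) {J : Set ℕ} {I : Set W} (hJ : J.OrdConnected)
    (hI : I.OrdConnected) : Adm A lo N (fun r => B.cut (s r) J I) ε where
  ok r hr := Ok.cut (h.ok r hr) hJ hI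
  sign := h.sign
  disj r hr r' hr' hne := (h.disj r hr r' hr' hne).mono (idx_cut_subset _ _ _)
    (idx_cut_subset _ _ _)
  card r hr w hw := h.card r hr w (idx_cut_subset _ _ _ hw)
  low r hr w hw := h.low r hr w (idx_cut_subset _ _ _ hw)

/-- cutting the segments of an admissible sum to weight indices `≥ lo'` -/
theorem Adm.cut_Ici (h : Adm A lo N s ε) (lo' : ℕ) {I : Set W} (hI : I.OrdConnected) :
    Adm A lo' N (fun r => B.cut (s r) (Set.Ici lo') I) ε where
  ok r hr := Ok.cut (h.ok r hr) Set.ordConnected_Ici hI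
  sign := h.sign
  disj r hr r' hr' hne := (h.disj r hr r' hr' hne).mono (idx_cut_subset _ _ _)
    (idx_cut_subset _ _ _)
  card r hr w hw := h.card r hr w (idx_cut_subset _ _ _ hw)
  low _ _ _ hw := (mem_idx_cut.1 hw).2

end adm

/-! ### closure properties of `K` -/

theorem Wtd_res {A : Set Fn} {I : Set W} (h : ∀ φ ∈ A, res I φ ∈ K) {n : ℕ} {φ : Fn}
    (hφ : φ ∈ Wtd A n) : res I φ ∈ Wtd K n := by
  obtain ⟨d, ψ, hd, hψ, hs, rfl⟩ := hφ
  refine ⟨d, fun i => res I (ψ i), hd, fun i hi => h _ (hψ i hi), fun i j hij hj => ?_, ?_⟩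
  · exact SLt.res (hs i j hij hj) _ _
  · rw [res_smul, res_sum]

theorem res_mem_K {φ : Fn} (hφ : φ ∈ K) {I : Set W} (hI : I.OrdConnected) : res I φ ∈ K := by
  refine K_induction (p := fun φ => ∀ I : Set W, I.OrdConnected → res I φ ∈ K) ?_ ?_ ?_ ?_ ?_ φ hφ
    I hI
  · intro I _
    rw [res_zero]; exact zero_mem_K
  · intro a I _
    by_cases h : a ∈ I
    · rw [res_single_of_mem h]; exact single_mem_K a
    · rw [res_single_of_notMem h]; exact zero_mem_K
  · intro a I _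
    by_cases h : a ∈ I
    · rw [res_single_of_mem h]; exact single_neg_mem_K a
    · rw [res_single_of_notMem h]; exact zero_mem_K
  · intro n hn φ hφ I hI
    exact Wtd_subset_K hn (Wtd_res (fun ψ hψ => hψ.2 I hI) hφ)
  · rintro φ ⟨N, s, ε, hs, rfl⟩ I hI
    refine Sums_subset_K 0 ⟨N, fun r => B.cut (s r) Set.univ I, ε,
      Adm.mono (Adm.cut hs Set.ordConnected_univ hI) (fun ψ hψ => hψ.1), ?_⟩
    rw [res_sum]
    refine Finset.sum_congr rfl fun r _ => ?_
    rw [res_smul, res_fn]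

theorem res_mem_Wtd {n : ℕ} {φ : Fn} (hφ : φ ∈ Wtd K n) {I : Set W} (hI : I.OrdConnected) :
    res I φ ∈ Wtd K n := Wtd_res (fun _ h => res_mem_K h hI) hφ

theorem neg_mem_K {φ : Fn} (hφ : φ ∈ K) : -φ ∈ K := by
  refine K_induction (p := fun φ => -φ ∈ K) ?_ ?_ ?_ ?_ ?_ φ hφ
  · rw [neg_zero]; exact zero_mem_K
  · intro a
    rw [← Finsupp.single_neg]; exact single_neg_mem_K a
  · intro a
    rw [← Finsupp.single_neg, neg_neg]; exact single_mem_K a
  · rintro n hn φ ⟨d, ψ, hd, hψ, hs, rfl⟩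
    refine Wtd_subset_K hn ⟨d, fun i => -ψ i, hd, fun i hi => (hψ i hi).2, fun i j hij hj => ?_, ?_⟩
    · rw [Finsupp.support_neg, Finsupp.support_neg]
      exact hs i j hij hj
    · rw [Finset.sum_neg_distrib, smul_neg]
  · rintro φ ⟨N, s, ε, hs, rfl⟩
    refine Sums_subset_K 0 ⟨N, s, fun r => -ε r, ⟨fun r hr => Ok.mono (hs.ok r hr) fun ψ hψ => hψ.1,
      fun r hr => ?_, hs.disj, hs.card, hs.low⟩, ?_⟩
    · rcases hs.sign r hr with h | h
      · right; rw [h]
      · left; rw [h, neg_neg]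
    · simp only [neg_smul, Finset.sum_neg_distrib]

/-- at most one of successive functionals is nonzero at a point -/
theorem sum_apply_of_succ {t : Finset ℕ} {ψ : ℕ → Fn}
    (hs : ∀ i ∈ t, ∀ j ∈ t, i < j → SLt (ψ i).support (ψ j).support) (a : W) :
    (∑ i ∈ t, ψ i) a = 0 ∨ ∃ i ∈ t, (∑ i ∈ t, ψ i) a = ψ i a := by
  classical
  rw [Finsupp.finsetSum_apply]
  by_cases h : ∃ i ∈ t, ψ i a ≠ 0
  · obtain ⟨i, hi, hne⟩ := h
    right
    refine ⟨i, hi, Finset.sum_eq_single i (fun j hj hji => ?_) (fun h => absurd hi h)⟩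
    by_contra hj0
    rcases lt_or_gt_of_ne hji with h1 | h1
    · exact lt_irrefl _ (hs j hj i hi h1 a (Finsupp.mem_support_iff.2 hj0) a
        (Finsupp.mem_support_iff.2 hne))
    · exact lt_irrefl _ (hs i hi j hj h1 a (Finsupp.mem_support_iff.2 hne) a
        (Finsupp.mem_support_iff.2 hj0))
  · push Not at h
    left
    exact Finset.sum_eq_zero h

theorem Wtd_apply_le {A : Set Fn} {a : W} (h : ∀ φ ∈ A, |φ a| ≤ 1) {n : ℕ} {φ : Fn}
    (hφ : φ ∈ Wtd A n) : |φ a| ≤ (m n : ℚ)⁻¹ := by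
  obtain ⟨d, ψ, hd, hψ, hs, rfl⟩ := hφ
  have hm : (0 : ℚ) ≤ (m n : ℚ)⁻¹ := by positivity
  rw [Finsupp.smul_apply, smul_eq_mul, abs_mul, abs_of_nonneg hm]
  have h1 : |(∑ i ∈ range d, ψ i) a| ≤ 1 := by
    rcases sum_apply_of_succ (t := range d) (ψ := ψ) (fun i _ j hj hij =>
      hs i j hij (Finset.mem_range.1 hj)) a with h0 | ⟨i, hi, h0⟩
    · rw [h0]; simp
    · rw [h0]; exact h _ (hψ i (Finset.mem_range.1 hi))
  calc (m n : ℚ)⁻¹ * |(∑ i ∈ range d, ψ i) a| ≤ (m n : ℚ)⁻¹ * 1 :=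
        mul_le_mul_of_nonneg_left h1 hm
    _ = _ := mul_one _

/-- the nodes of a special sequence have successive supports -/
theorem IsSpecial.slt {A : Set Fn} {Φ : ℕ → Node} {n : ℕ} (h : IsSpecial A Φ n) {i j : ℕ}
    (hij : i < j) (hj : j < n) : SLt (Φ i).φ.support (Φ j).φ.support := h.cod.bef hij hj

theorem IsSpecial.w_lt {A : Set Fn} {Φ : ℕ → Node} {n : ℕ} (h : IsSpecial A Φ n) {i j : ℕ}
    (hij : i < j) (hj : j < n) : (Φ i).w < (Φ j).w := h.cod.w_lt_w hij hj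

theorem IsSpecial.w_inj {A : Set Fn} {Φ : ℕ → Node} {n : ℕ} (h : IsSpecial A Φ n) {i j : ℕ}
    (hi : i < n) (hj : j < n) (hw : (Φ i).w = (Φ j).w) : i = j := h.cod.w_inj hi hj hw

theorem IsSpecial.w_pos {A : Set Fn} {Φ : ℕ → Node} {n : ℕ} (h : IsSpecial A Φ n) {i : ℕ}
    (hi : i < n) : 0 < (Φ i).w := lt_of_le_of_lt (Nat.zero_le _) (h.cod.le_w hi)

theorem Ok.idx_pos {A : Set Fn} {s : Seg} (h : s.Ok A) {w : ℕ} (hw : w ∈ s.idx) : 0 < w := by
  obtain ⟨k, hk, -, rfl⟩ := mem_idx.1 hw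
  exact IsSpecial.w_pos h.sp hk

/-- the value of a segment at a point is `0` or the value of one of its nodes -/
theorem Ok.fn_apply {A : Set Fn} {s : Seg} (h : s.Ok A) (a : W) :
    s.fn a = 0 ∨ ∃ k ∈ s.nodes, a ∈ s.I ∧ s.fn a = (s.Φ k).φ a := by
  classical
  unfold Seg.fn
  rw [res_apply]
  by_cases ha : a ∈ s.I
  · rw [if_pos ha]
    rcases sum_apply_of_succ (t := s.nodes) (ψ := fun k => (s.Φ k).φ) (fun i _ j hj hij =>
      IsSpecial.slt h.sp hij (mem_nodes.1 hj).1) a with h0 | ⟨i, hi, h0⟩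
    · exact Or.inl h0
    · exact Or.inr ⟨i, hi, ha, h0⟩
  · rw [if_neg ha]
    exact Or.inl rfl

theorem Ok.abs_fn_apply_le {A : Set Fn} {s : Seg} (h : s.Ok A) {a : W}
    (hA : ∀ φ ∈ A, |φ a| ≤ 1) {N : ℕ} (hN : 0 < N) (hNw : ∀ w ∈ s.idx, N ≤ w) :
    |s.fn a| ≤ (N : ℚ)⁻¹ := by
  rcases Ok.fn_apply h a with h0 | ⟨k, hk, -, h0⟩
  · rw [h0, abs_zero]; positivity
  · rw [h0]
    refine (Wtd_apply_le hA (h.sp.wtd k (mem_nodes.1 hk).1)).trans ?_
    have h1 : N ≤ m (ell (s.Φ k).w) := (hNw _ (w_mem_idx hk)).trans (lt_m_ell _).le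
    have h2 : (0 : ℚ) < N := by exact_mod_cast hN
    have h3 : (N : ℚ) ≤ m (ell (s.Φ k).w) := by exact_mod_cast h1
    exact inv_anti₀ h2 h3

theorem abs_apply_le_one {φ : Fn} (hφ : φ ∈ K) (a : W) : |φ a| ≤ 1 := by
  classical
  refine K_induction (p := fun φ => |φ a| ≤ 1) ?_ ?_ ?_ ?_ ?_ φ hφ
  · simp
  · intro b
    rw [Finsupp.single_apply]
    split_ifs <;> simp
  · intro b
    rw [Finsupp.single_apply]
    split_ifs <;> simp
  · intro n hn φ hφ
    refine (Wtd_apply_le (fun ψ hψ => hψ.2) hφ).trans ?_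
    have : (1 : ℚ) ≤ m n := by exact_mod_cast m_pos n
    exact inv_le_one_of_one_le₀ this
  · rintro φ ⟨N, s, ε, hs, rfl⟩
    rw [Finsupp.finsetSum_apply]
    refine (Finset.abs_sum_le_sum_abs _ _).trans ?_
    rcases Nat.eq_zero_or_pos N with rfl | hN
    · simp
    have h1 : ∀ r ∈ range N, |(ε r • (s r).fn) a| ≤ (N : ℚ)⁻¹ := by
      intro r hr
      rw [Finset.mem_range] at hr
      rw [Finsupp.smul_apply, smul_eq_mul, abs_mul]
      have h2 : |ε r| = 1 := by
        rcases hs.sign r hr with h | h <;> rw [h] <;> simp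
      rw [h2, one_mul]
      exact Ok.abs_fn_apply_le (hs.ok r hr) (fun ψ hψ => hψ.2) hN (hs.card r hr)
    refine (Finset.sum_le_sum h1).trans ?_
    rw [Finset.sum_const, Finset.card_range, nsmul_eq_mul]
    have : (N : ℚ) ≠ 0 := by exact_mod_cast hN.ne'
    rw [mul_inv_cancel₀ this]

theorem abs_apply_le_of_Wtd {n : ℕ} {φ : Fn} (hφ : φ ∈ Wtd K n) (a : W) :
    |φ a| ≤ (m n : ℚ)⁻¹ := Wtd_apply_le (fun _ h => abs_apply_le_one h a) hφ

/-! ### `K` is a norming set in the sense of `H630` -/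

theorem list_sum_eq (l : List Fn) : l.sum = ∑ i ∈ range l.length, l.getD i 0 := by
  induction l with
  | nil => simp
  | cons a l ih =>
    rw [List.sum_cons, List.length_cons, Finset.sum_range_succ', ih]
    simp [add_comm]

theorem norming : H630.Norming K (fun n => (m n : ℚ)) where
  single_mem := single_mem_K
  neg_mem _ h := neg_mem_K h
  abs_le _ h a := abs_apply_le_one h a
  res_mem _ h _ hI := res_mem_K h hI
  avg_mem n hn l hl hK hp := by
    refine Wtd_subset_K hn ⟨l.length, fun i => l.getD i 0, hl, ?_, ?_, ?_⟩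
    · intro i hi
      show l.getD i 0 ∈ K
      rw [List.getD_eq_getElem _ _ hi]
      exact hK _ (List.getElem_mem hi)
    · intro i j hij hj
      show SLt (l.getD i 0).support (l.getD j 0).support
      rw [List.getD_eq_getElem _ _ hj, List.getD_eq_getElem _ _ (hij.trans hj)]
      exact List.pairwise_iff_getElem.1 hp i j (hij.trans hj) hj hij
    · rw [list_sum_eq]

/-- the Banach space `V` -/
abbrev V : Type := H630.VT K

/-- the vector of `V` given by a finitely supported vector -/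
noncomputable def toV (x : Vec) : V := H630.toV norming x

end Vale.Agent.P129.B
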