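import Mathlib

/-!
P129, part E': existence of `ℓ₁^n`-averages in block sequences.

Abstract form.  `x : ℕ → X` is a sequence of vectors of norm `≤ 1` in a real normed space such that
sums of `N` consecutive terms (from any starting point) have norm at least `N / m N`, where `m`
grows slowly.  Then for all `n`, `C > 1` and `K` there is a unit vector `u = (1/n) ∑ u_i`, the `u_i`
being multiples (by a common positive factor) of sums over `n` consecutive intervals of equal length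
after `K`, with `‖u_i‖ ≤ C`.
-/

namespace Vale.Agent.P129.H630

open Finset

variable {X : Type*} [NormedAddCommGroup X] [NormedSpace ℝ X]

/-- the sum of `x` over the interval `[a, b)` -/
def ISum (x : ℕ → X) (a b : ℕ) : X := ∑ l ∈ Ico a b, x l

omit [NormedSpace ℝ X] in
theorem isum_split (x : ℕ → X) (K n L : ℕ) :
    ISum x K (K + n * L) = ∑ i ∈ range n, ISum x (K + i * L) (K + (i + 1) * L) := by
  unfold ISum
  induction n with
  | zero => simp
  | succ n ih =>
    rw [sum_range_succ, ← ih, sum_Ico_consecutive]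
    · have : 0 ≤ n * L := Nat.zero_le _
      omega
    · exact Nat.add_le_add_left (Nat.mul_le_mul_right _ (Nat.le_succ n)) _

omit [NormedSpace ℝ X] in
/-- **Existence of averages.** -/
theorem exists_average (x : ℕ → X) (hx : ∀ i, ‖x i‖ ≤ 1) (m : ℕ → ℝ) {n : ℕ} {K : ℕ}
    (hlow : ∀ N : ℕ, 1 ≤ N → (N : ℝ) ≤ m N * ‖ISum x K (K + N)‖) (hn : 1 ≤ n) {C : ℝ} (hC : 1 < C)
    {k : ℕ} (hk : m (n ^ k) < C ^ k) :
    ∃ a L : ℕ, K ≤ a ∧ 1 ≤ L ∧ a + n * L ≤ K + n ^ k ∧ 0 < ‖ISum x a (a + n * L)‖ ∧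
      ∀ i < n, (n : ℝ) * ‖ISum x (a + i * L) (a + (i + 1) * L)‖ ≤
        C * ‖ISum x a (a + n * L)‖ := by
  have hC0 : 0 < C := by linarith
  by_contra hcon
  push Not at hcon
  -- the norms of sums over intervals of length `n ^ j`
  have key : ∀ j, j ≤ k → ∀ s, (s + 1) * n ^ j ≤ n ^ k →
      C ^ j * ‖ISum x (K + s * n ^ j) (K + (s + 1) * n ^ j)‖ ≤ (n : ℝ) ^ j := by
    intro j
    induction j with
    | zero =>
      intro _ s _
      simp only [pow_zero, mul_one, one_mul]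
      have : ISum x (K + s) (K + (s + 1)) = x (K + s) := by
        unfold ISum
        rw [← add_assoc, Nat.Ico_succ_singleton, sum_singleton]
      rw [this]
      exact hx _
    | succ j ih =>
      intro hj s hs
      have e1 : s * n ^ (j + 1) = s * n * n ^ j := by ring
      have e2 : (s + 1) * n ^ (j + 1) = s * n * n ^ j + n * n ^ j := by ring
      have hs' : K + s * n * n ^ j + n * n ^ j ≤ K + n ^ k := by
        rw [e2] at hs; omega
      have hL : 1 ≤ n ^ j := Nat.one_le_pow _ _ hn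
      rw [e1, e2, ← add_assoc]
      by_cases h0 : 0 < ‖ISum x (K + s * n * n ^ j) (K + s * n * n ^ j + n * n ^ j)‖
      · obtain ⟨i, hi, hlt⟩ := hcon (K + s * n * n ^ j) (n ^ j) (by omega) hL hs' h0
        have e3 : K + s * n * n ^ j + i * n ^ j = K + (s * n + i) * n ^ j := by ring
        have e4 : K + s * n * n ^ j + (i + 1) * n ^ j = K + (s * n + i + 1) * n ^ j := by ring
        rw [e3, e4] at hlt
        have hb : (s * n + i + 1) * n ^ j ≤ n ^ k := by
          refine le_trans ?_ hs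
          have : (s + 1) * n ^ (j + 1) = (s * n + n) * n ^ j := by ring
          rw [this]
          exact Nat.mul_le_mul_right _ (by omega)
        have h1 := ih (by omega) (s * n + i) hb
        have hCj : 0 < C ^ j := pow_pos hC0 j
        have hn0 : (0 : ℝ) ≤ n := Nat.cast_nonneg n
        calc C ^ (j + 1) * ‖ISum x (K + s * n * n ^ j) (K + s * n * n ^ j + n * n ^ j)‖
            = C ^ j * (C * ‖ISum x (K + s * n * n ^ j) (K + s * n * n ^ j + n * n ^ j)‖) := by
              ring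
          _ ≤ C ^ j * ((n : ℝ) * ‖ISum x (K + (s * n + i) * n ^ j)
                (K + (s * n + i + 1) * n ^ j)‖) :=
              mul_le_mul_of_nonneg_left hlt.le hCj.le
          _ = (n : ℝ) * (C ^ j * ‖ISum x (K + (s * n + i) * n ^ j)
                (K + (s * n + i + 1) * n ^ j)‖) := by ring
          _ ≤ (n : ℝ) * (n : ℝ) ^ j := mul_le_mul_of_nonneg_left h1 hn0
          _ = (n : ℝ) ^ (j + 1) := by ring
      · have h2 : ‖ISum x (K + s * n * n ^ j) (K + s * n * n ^ j + n * n ^ j)‖ = 0 :=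
          le_antisymm (not_lt.1 h0) (norm_nonneg _)
        rw [h2, mul_zero]
        positivity
  have h1 := key k le_rfl 0 (by simp)
  simp only [zero_mul, add_zero, zero_add, one_mul] at h1
  have hN : 1 ≤ n ^ k := Nat.one_le_pow _ _ hn
  have h2 := hlow (n ^ k) hN
  have h3 : (0 : ℝ) < (n ^ k : ℕ) := by exact_mod_cast hN
  have h4 : 0 < ‖ISum x K (K + n ^ k)‖ := by
    by_contra h5
    have h6 : ‖ISum x K (K + n ^ k)‖ = 0 := le_antisymm (not_lt.1 h5) (norm_nonneg _)
    rw [h6, mul_zero] at h2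
    linarith
  have h5 : C ^ k * ‖ISum x K (K + n ^ k)‖ ≤ m (n ^ k) * ‖ISum x K (K + n ^ k)‖ := by
    refine h1.trans ?_
    have : ((n ^ k : ℕ) : ℝ) = (n : ℝ) ^ k := by push_cast; ring
    rw [← this]
    exact h2
  have h6 := le_of_mul_le_mul_right h5 h4
  linarith

/-- Normalised form: there is a unit vector `u = (1/n) ∑ u_i`, `u_i = c • ∑_{l ∈ I_i} x_l` for
consecutive intervals `I_i = [a + i L, a + (i+1) L)`, with `‖u_i‖ ≤ C`. -/
theorem exists_unit_average (x : ℕ → X) (hx : ∀ i, ‖x i‖ ≤ 1) (m : ℕ → ℝ) {n : ℕ} {K : ℕ}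
    (hlow : ∀ N : ℕ, 1 ≤ N → (N : ℝ) ≤ m N * ‖ISum x K (K + N)‖) (hn : 1 ≤ n) {C : ℝ} (hC : 1 < C)
    {k : ℕ} (hk : m (n ^ k) < C ^ k) :
    ∃ (a L : ℕ) (c : ℝ), K ≤ a ∧ 1 ≤ L ∧ a + n * L ≤ K + n ^ k ∧ 0 < c ∧
      ‖(c / n) • ISum x a (a + n * L)‖ = 1 ∧
      (∀ i < n, ‖c • ISum x (a + i * L) (a + (i + 1) * L)‖ ≤ C) ∧
      (c / n) • ISum x a (a + n * L) =
        (1 / n : ℝ) • ∑ i ∈ range n, c • ISum x (a + i * L) (a + (i + 1) * L) := by
  obtain ⟨a, L, h1, h2, h3, h4, h5⟩ := exists_average x hx m hlow hn hC hk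
  have hn0 : (0 : ℝ) < n := by exact_mod_cast hn
  refine ⟨a, L, n / ‖ISum x a (a + n * L)‖, h1, h2, h3, by positivity, ?_, ?_, ?_⟩
  · rw [norm_smul, Real.norm_of_nonneg (by positivity)]
    field_simp
  · intro i hi
    rw [norm_smul, Real.norm_of_nonneg (by positivity), div_mul_eq_mul_div, div_le_iff₀ h4]
    exact h5 i hi
  · rw [isum_split, ← smul_sum, smul_smul]
    congr 1
    field_simp

/-- The growth condition holds for `m N = c (1 + log₂ N)`: for all `n ≥ 1` and `C > 1` there is `k`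
with `m (n ^ k) < C ^ k`. -/
theorem exists_pow_gt (c : ℝ) {n : ℕ} (hn : 1 ≤ n) {C : ℝ} (hC : 1 < C) :
    ∃ k : ℕ, 1 ≤ k ∧ c * (1 + Real.logb 2 ((n ^ k : ℕ) : ℝ)) < C ^ k := by
  have hn0 : (0 : ℝ) < n := by exact_mod_cast hn
  have h1 : Filter.Tendsto (fun k : ℕ => (k : ℝ) ^ 1 / C ^ k) Filter.atTop (nhds 0) :=
    tendsto_pow_const_div_const_pow_of_one_lt 1 hC
  have h2 : Filter.Tendsto (fun k : ℕ => 1 / C ^ k) Filter.atTop (nhds 0) := by
    have := tendsto_pow_const_div_const_pow_of_one_lt 0 hC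
    simpa using this
  have h3 : Filter.Tendsto (fun k : ℕ => c * (1 / C ^ k) + c * Real.logb 2 n *
      ((k : ℝ) ^ 1 / C ^ k)) Filter.atTop (nhds 0) := by
    have := (h2.const_mul c).add (h1.const_mul (c * Real.logb 2 n))
    simpa using this
  have h4 := (h3.eventually_lt_const (by norm_num : (0 : ℝ) < 1)).and
    (Filter.eventually_ge_atTop 1)
  obtain ⟨k, hk, hk1⟩ := h4.exists
  refine ⟨k, hk1, ?_⟩
  have hCk : 0 < C ^ k := pow_pos (by linarith) k
  have h5 : Real.logb 2 ((n ^ k : ℕ) : ℝ) = k * Real.logb 2 n := by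
    push_cast
    exact Real.logb_pow 2 (n : ℝ) k
  rw [h5]
  have h6 : c * (1 + k * Real.logb 2 n) =
      (c * (1 / C ^ k) + c * Real.logb 2 n * ((k : ℝ) ^ 1 / C ^ k)) * C ^ k := by
    field_simp
  rw [h6]
  calc _ < 1 * C ^ k := mul_lt_mul_of_pos_right hk hCk
    _ = C ^ k := one_mul _

end Vale.Agent.P129.H630
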