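import Vale.Agent.P129.H630.NormV
import Vale.Agent.P129.H168.Frame

/-!
P129, part B: the space `V` of a norming set is a `Frame` in the sense of part I.
-/

namespace Vale.Agent.P129.H630

open Filter Topology H168

variable {ι : Type*} [LinearOrder ι] {K : Set (ι →₀ ℚ)} {m : ℕ → ℚ}

/-- the unit vectors -/
noncomputable def eV (hK : Norming K m) (a : ι) : VT K := toV hK (Finsupp.single a 1)

theorem toV_eq_sum (hK : Norming K m) (x : ι →₀ ℝ) : toV hK x = x.sum fun a r => r • eV hK a := by
  classical
  have : (toVₗ hK) x = x.sum fun a r => r • (toVₗ hK) (Finsupp.single a 1) := by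
    conv_lhs => rw [← Finsupp.sum_single x]
    rw [map_finsuppSum]
    refine Finsupp.sum_congr fun a _ => ?_
    rw [← map_smul, Finsupp.smul_single, smul_eq_mul, mul_one]
  exact this

theorem coord_eV (hK : Norming K m) (a b : ι) [Decidable (a = b)] :
    coord hK a (eV hK b) = if a = b then 1 else 0 := by
  classical
  rw [eV, coord_toV, Finsupp.single_apply]
  simp only [eq_comm]

theorem proj_single_pos (hK : Norming K m) {I : Set ι} (hI : I.OrdConnected) {b : ι}
    (hb : b ∈ I) (r : ℝ) :
    proj hK I hI (toV hK (Finsupp.single b r)) = toV hK (Finsupp.single b r) := by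
  classical
  rw [proj_toV]
  congr 1
  convert Finsupp.filter_single_of_pos _ hb

theorem proj_single_neg (hK : Norming K m) {I : Set ι} (hI : I.OrdConnected) {b : ι}
    (hb : b ∉ I) (r : ℝ) :
    proj hK I hI (toV hK (Finsupp.single b r)) = 0 := by
  classical
  rw [proj_toV]
  have : Finsupp.filter (· ∈ I) (Finsupp.single b r) = 0 := by
    convert Finsupp.filter_single_of_neg _ hb
  rw [this]
  exact (toVₗ hK).map_zero

/-- the initial projections -/
noncomputable def PV (hK : Norming K m) (a : ι) : VT K →L[ℝ] VT K :=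
  proj hK (Set.Iio a) Set.ordConnected_Iio

theorem PV_sub (hK : Norming K m) {a b : ι} (hab : a ≤ b) (v : VT K) :
    PV hK b v - PV hK a v = proj hK (Set.Ico a b) Set.ordConnected_Ico v := by
  rw [sub_eq_iff_eq_add', PV, PV]
  rw [proj_add_proj hK _ _ Set.ordConnected_Iio _ (Set.Iio_union_Ico_eq_Iio hab)]
  rw [Set.disjoint_left]
  intro c hc hc'
  exact absurd hc (not_lt.2 hc'.1)

theorem proj_univ (hK : Norming K m) (v : VT K) :
    proj hK Set.univ Set.ordConnected_univ v = v := by
  classical
  have : proj hK Set.univ Set.ordConnected_univ = ContinuousLinearMap.id ℝ (VT K) :=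
    clm_ext hK fun x => by
      rw [proj_toV]
      show toV hK _ = toV hK x
      congr 1
      ext a
      simp
  rw [this]; rfl

theorem sub_PV (hK : Norming K m) (a : ι) (v : VT K) :
    v - PV hK a v = proj hK (Set.Ici a) Set.ordConnected_Ici v := by
  rw [sub_eq_iff_eq_add', PV, proj_add_proj hK _ _ Set.ordConnected_univ _
    (Set.Iio_union_Ici (a := a)), proj_univ]
  rw [Set.disjoint_left]
  intro c hc hc'
  exact absurd hc (not_lt.2 hc')

theorem coord_proj (hK : Norming K m) (I : Set ι) (hI : I.OrdConnected) (a : ι)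
    [Decidable (a ∈ I)] (v : VT K) :
    coord hK a (proj hK I hI v) = if a ∈ I then coord hK a v else 0 := by
  classical
  have h1 := toD_proj hK I hI (Finsupp.single a 1) v
  have h2 : ∀ w, toD hK (Finsupp.single a 1) w = coord hK a w := fun w => by
    rw [toD_apply, Finsupp.sum_single_index (by simp)]
    simp
  rw [h2] at h1
  rw [h1]
  split_ifs with h
  · have : res I (Finsupp.single a 1) = Finsupp.single a 1 := by
      unfold res
      exact Finsupp.filter_single_of_pos _ h
    rw [this, h2]
  · have : res I (Finsupp.single a (1 : ℚ)) = 0 := by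
      unfold res
      exact Finsupp.filter_single_of_neg _ h
    rw [this, toD_zero]
    rfl

theorem span_dense (hK : Norming K m) :
    (Submodule.span ℝ (Set.range (eV hK))).topologicalClosure = ⊤ := by
  rw [← Submodule.dense_iff_topologicalClosure_eq_top]
  refine (dense_toV hK).mono ?_
  rintro _ ⟨x, rfl⟩
  rw [toV_eq_sum]
  exact Submodule.sum_mem _ fun a _ => Submodule.smul_mem _ _ (Submodule.subset_span ⟨a, rfl⟩)

/-- **`V` is a frame.** -/
noncomputable def frameV (hK : Norming K m) (hm : ∀ n, 2 ≤ n → 0 < m n)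
    (hlim : Tendsto (fun n : ℕ => (m n : ℝ) / n) atTop (𝓝 0)) : Frame ι (VT K) where
  e := eV hK
  es := coord hK
  P := PV hK
  norm_e_le a := by
    refine norm_toV_le hK _ fun φ hφ => ?_
    rw [pair_single, mul_one]
    have := (le_abs_self _).trans (hK.abs_le φ hφ a)
    exact_mod_cast this
  norm_es_le a := norm_ev_le _
  es_e a b := by classical rw [coord_eV]
  dense := span_dense hK
  P_e a b := by
    classical
    split_ifs with h
    · exact proj_single_pos hK (I := Set.Iio a) _ h 1
    · exact proj_single_neg hK (I := Set.Iio a) _ h 1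
  norm_P_le a := ContinuousLinearMap.opNorm_le_bound _ zero_le_one fun v => by
    rw [one_mul]; exact norm_proj_le hK _ _ v
  norm_P_sub_le a b hab := ContinuousLinearMap.opNorm_le_bound _ zero_le_one fun v => by
    rw [one_mul, sub_apply, PV_sub hK hab]
    exact norm_proj_le hK _ _ v
  norm_sub_P_le a v := by rw [sub_PV]; exact norm_proj_le hK _ _ v
  m n := if n ≤ 1 then 1 else (m n : ℝ)
  m_small := by
    refine hlim.congr' ?_
    filter_upwards [eventually_ge_atTop 2] with n hn
    rw [if_neg (by omega)]
  sum_le a ha n v := by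
    have h1 : ∀ i, PV hK (a (i + 1)) v - PV hK (a i) v =
        proj hK (Set.Ico (a i) (a (i + 1))) Set.ordConnected_Ico v := fun i =>
      PV_sub hK (ha (Nat.le_succ i)) v
    simp only [h1]
    by_cases hn : n ≤ 1
    · rw [if_pos hn, one_mul]
      interval_cases n
      · simp
      · rw [Finset.sum_range_one]
        exact norm_proj_le hK _ _ v
    · rw [if_neg hn]
      exact sum_norm_proj_le hK hm (by omega) le_rfl _ _ (fun i j hij _ x hx y hy =>
        lt_of_lt_of_le hx.2 ((ha (Nat.succ_le_of_lt hij)).trans hy.1)) v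
  norming v ε hε := by
    obtain ⟨φ, hφ, hgt⟩ := exists_toD_gt hK v hε
    refine ⟨φ.support, fun a => (φ a : ℝ), fun a _ => ?_, ?_, ?_⟩
    · have := hK.abs_le φ hφ a
      show |(φ a : ℝ)| ≤ 1
      exact_mod_cast this
    · exact norm_toD_le hK hφ
    · rw [toD_apply] at hgt
      exact hgt.le

end Vale.Agent.P129.H630
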