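import Mathlib

/-!
P129, part A: a coherent system of finite sets on a well-order all of whose initial segments are
countable (the function `rho`).
-/

namespace Vale.Agent.P129.H630

variable {ι : Type*} [LinearOrder ι]

/-- A coherent system of finite sets: `F n b` is a finite set of elements `≤ b`, containing `b`,
increasing in `n` with union `{a | a ≤ b}`, and `F n a` is the initial part of `F n b` for
`a ∈ F n b`. -/
structure Coherent (F : ℕ → ι → Finset ι) : Prop where
  self_mem : ∀ n b, b ∈ F n b
  le : ∀ n b, ∀ a ∈ F n b, a ≤ b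
  mono : ∀ b, Monotone fun n => F n b
  exists_mem : ∀ b, ∀ a ≤ b, ∃ n, a ∈ F n b
  coh : ∀ n b, ∀ a ∈ F n b, F n a = (F n b).filter fun c => c ≤ a

/-- A countable nonempty set of a linear order has a monotone cofinal sequence. -/
theorem exists_seq {s : Set ι} (hs : s.Countable) (hne : s.Nonempty) :
    ∃ a : ℕ → ι, (∀ k, a k ∈ s) ∧ Monotone a ∧ ∀ c ∈ s, ∃ k, c ≤ a k := by
  obtain ⟨e, he⟩ := hs.exists_eq_range hne
  refine ⟨fun k => (Finset.range (k + 1)).sup' ⟨0, by simp⟩ e, ?_, ?_, ?_⟩
  · intro k
    obtain ⟨i, _, hi⟩ := Finset.exists_mem_eq_sup' (⟨0, by simp⟩ : (Finset.range (k + 1)).Nonempty) e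
    simp only [hi]
    rw [he]
    exact ⟨i, rfl⟩
  · intro k l hkl
    refine Finset.sup'_mono e ?_ _
    intro i hi
    rw [Finset.mem_range] at hi ⊢
    omega
  · intro c hc
    rw [he] at hc
    obtain ⟨i, rfl⟩ := hc
    exact ⟨i, Finset.le_sup' e (Finset.mem_range.2 (Nat.lt_succ_self i))⟩

section
variable [WellFoundedLT ι]

open Classical in
/-- the recursion; `a b` is a sequence below `b` -/
noncomputable def Fr (a : ι → ℕ → ι) (n : ℕ) (b : ι) : Finset ι :=
  wellFounded_lt.fix (C := fun _ => Finset ι) (fun b rec =>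
    if h : ∀ k, a b k < b then
      insert b (rec (a b (Nat.findGreatest
        (fun k => ∀ i < k, a b i ∈ rec (a b (i + 1)) (h _)) n)) (h _))
    else {b}) b

open Classical in
/-- how far the sequence of `b` is used at level `n` -/
noncomputable def kk (a : ι → ℕ → ι) (n : ℕ) (b : ι) : ℕ :=
  Nat.findGreatest (fun k => ∀ i < k, a b i ∈ Fr a n (a b (i + 1))) n

open Classical in
theorem Fr_eq (a : ι → ℕ → ι) (n : ℕ) (b : ι) :
    Fr a n b = if ∀ k, a b k < b then insert b (Fr a n (a b (kk a n b))) else {b} := by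
  rw [Fr, wellFounded_lt.fix_eq]
  split_ifs with h
  · rfl
  · rfl

theorem Fr_of_lt {a : ι → ℕ → ι} {n : ℕ} {b : ι} (h : ∀ k, a b k < b) :
    Fr a n b = insert b (Fr a n (a b (kk a n b))) := by
  classical
  rw [Fr_eq, if_pos h]

theorem Fr_of_not {a : ι → ℕ → ι} {n : ℕ} {b : ι} (h : ¬ ∀ k, a b k < b) :
    Fr a n b = {b} := by
  classical
  rw [Fr_eq, if_neg h]

/-- **The coherent system exists** on every well-order with countable initial segments. -/
theorem exists_coherent (hc : ∀ b : ι, (Set.Iio b).Countable) :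
    ∃ F : ℕ → ι → Finset ι, Coherent F := by
  classical
  have hseq : ∀ b : ι, ∃ a : ℕ → ι, (Set.Iio b).Nonempty →
      (∀ k, a k < b) ∧ Monotone a ∧ ∀ c < b, ∃ k, c ≤ a k := by
    intro b
    by_cases hb : (Set.Iio b).Nonempty
    · obtain ⟨a, h1, h2, h3⟩ := exists_seq (hc b) hb
      exact ⟨a, fun _ => ⟨h1, h2, h3⟩⟩
    · exact ⟨fun _ => b, fun h => absurd h hb⟩
  choose a ha using hseq
  have self_mem : ∀ n b, b ∈ Fr a n b := by
    intro n b
    by_cases h : ∀ k, a b k < b
    · rw [Fr_of_lt h]; exact Finset.mem_insert_self _ _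
    · rw [Fr_of_not h]; exact Finset.mem_singleton_self _
  have le : ∀ n b, ∀ c ∈ Fr a n b, c ≤ b := by
    intro n b
    induction b using WellFoundedLT.induction with
    | ind b ih =>
      intro c hcb
      by_cases h : ∀ k, a b k < b
      · rw [Fr_of_lt h, Finset.mem_insert] at hcb
        rcases hcb with rfl | hcb
        · exact le_rfl
        · exact (ih _ (h _) c hcb).trans (h _).le
      · rw [Fr_of_not h, Finset.mem_singleton] at hcb
        exact hcb.le
  have coh : ∀ n b, ∀ c ∈ Fr a n b, Fr a n c = (Fr a n b).filter fun d => d ≤ c := by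
    intro n b
    induction b using WellFoundedLT.induction with
    | ind b ih =>
      intro c hcb
      by_cases h : ∀ k, a b k < b
      · rw [Fr_of_lt h, Finset.mem_insert] at hcb
        rcases hcb with rfl | hcb
        · rw [Finset.filter_true_of_mem (le n c)]
        · rw [ih _ (h _) c hcb, Fr_of_lt h, Finset.filter_insert, if_neg]
          exact not_le.2 (lt_of_le_of_lt (le n _ c hcb) (h _))
      · rw [Fr_of_not h, Finset.mem_singleton] at hcb
        subst hcb
        rw [Finset.filter_true_of_mem (le n c)]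
  have trans : ∀ n b c d, c ∈ Fr a n b → d ∈ Fr a n c → d ∈ Fr a n b := by
    intro n b c d h1 h2
    rw [coh n b c h1] at h2
    exact (Finset.mem_filter.1 h2).1
  -- the chain up to `kk`
  have chain : ∀ n b, (∀ i < kk a n b, a b i ∈ Fr a n (a b (i + 1))) := by
    intro n b
    have := Nat.findGreatest_spec (P := fun k => ∀ i < k, a b i ∈ Fr a n (a b (i + 1)))
      (m := 0) (n := n) (Nat.zero_le n) (by intro i hi; omega)
    exact this
  have chain' : ∀ n b j, j ≤ kk a n b → a b j ∈ Fr a n (a b (kk a n b)) := by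
    intro n b j hj
    have : ∀ l, j + l ≤ kk a n b → a b j ∈ Fr a n (a b (j + l)) := by
      intro l
      induction l with
      | zero => intro _; exact self_mem _ _
      | succ l ihl =>
        intro hl
        exact trans n _ _ _ (chain n b (j + l) (by omega)) (ihl (by omega))
    have h2 := this (kk a n b - j) (by omega)
    rwa [Nat.add_sub_cancel' hj] at h2
  have mono : ∀ b, ∀ n m, n ≤ m → Fr a n b ⊆ Fr a m b := by
    intro b
    induction b using WellFoundedLT.induction with
    | ind b ih =>
      intro n m hnm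
      by_cases h : ∀ k, a b k < b
      · rw [Fr_of_lt h, Fr_of_lt h]
        refine Finset.insert_subset_insert _ ?_
        have hk : kk a n b ≤ kk a m b := by
          refine Nat.le_findGreatest ((Nat.findGreatest_le n).trans hnm) ?_
          intro i hi
          exact ih _ (h _) n m hnm (chain n b i hi)
        intro d hd
        exact trans m _ _ _ (chain' m b _ hk) (ih _ (h _) n m hnm hd)
      · rw [Fr_of_not h, Fr_of_not h]
  have ex : ∀ b, ∀ c ≤ b, ∃ n, c ∈ Fr a n b := by
    intro b
    induction b using WellFoundedLT.induction with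
    | ind b ih =>
      intro c hcb
      rcases hcb.eq_or_lt with rfl | hlt
      · exact ⟨0, self_mem _ _⟩
      · obtain ⟨h1, h2, h3⟩ := ha b ⟨c, hlt⟩
        obtain ⟨k, hk⟩ := h3 c hlt
        obtain ⟨n1, hn1⟩ := ih _ (h1 k) c hk
        have h4 : ∀ i, ∃ n, a b i ∈ Fr a n (a b (i + 1)) := fun i =>
          ih _ (h1 (i + 1)) _ (h2 (Nat.le_succ i))
        choose g hg using h4
        let n := max (max k n1) ((Finset.range k).sup g)
        have hkn : k ≤ kk a n b := by
          refine Nat.le_findGreatest ((le_max_left _ _).trans (le_max_left _ _)) ?_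
          intro i hi
          refine mono _ (g i) n ?_ (hg i)
          exact (Finset.le_sup (f := g) (Finset.mem_range.2 hi)).trans (le_max_right _ _)
        refine ⟨n, ?_⟩
        rw [Fr_of_lt h1]
        refine Finset.mem_insert_of_mem (trans n _ _ _ (chain' n b k hkn) ?_)
        exact mono _ n1 n ((le_max_right _ _).trans (le_max_left _ _)) hn1
  exact ⟨Fr a, self_mem, le, fun b n m h => mono b n m h, ex, coh⟩

end

namespace Coherent

variable {F : ℕ → ι → Finset ι} (hF : Coherent F)
include hF

theorem trans {n : ℕ} {a b c : ι} (h1 : b ∈ F n c) (h2 : a ∈ F n b) : a ∈ F n c := by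
  rw [hF.coh n c b h1] at h2
  exact (Finset.mem_filter.1 h2).1

theorem mem_of_le {n : ℕ} {a b c : ι} (h1 : b ∈ F n c) (h2 : a ∈ F n c) (hab : a ≤ b) :
    a ∈ F n b := by
  rw [hF.coh n c b h1]
  exact Finset.mem_filter.2 ⟨h2, hab⟩

theorem mem_mono {n m : ℕ} {a b : ι} (h : a ∈ F n b) (hnm : n ≤ m) : a ∈ F m b :=
  hF.mono b hnm h

end Coherent

open Classical in
/-- the function `rho a b`: the least `n` with `a ∈ F n b` (used for `a ≤ b`) -/
noncomputable def rho (F : ℕ → ι → Finset ι) (a b : ι) : ℕ :=
  if h : ∃ n, a ∈ F n b then Nat.find h else 0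

namespace Coherent

variable {F : ℕ → ι → Finset ι} (hF : Coherent F)
include hF

theorem rho_le_iff {n : ℕ} {a b : ι} (hab : a ≤ b) : rho F a b ≤ n ↔ a ∈ F n b := by
  classical
  have h := hF.exists_mem b a hab
  unfold rho
  rw [dif_pos h]
  constructor
  · intro h1
    exact hF.mem_mono (Nat.find_spec h) h1
  · intro h1
    exact Nat.find_min' h h1

theorem rho_self (a : ι) : rho F a a = 0 :=
  Nat.le_zero.1 ((hF.rho_le_iff le_rfl).2 (hF.self_mem 0 a))

/-- `rho a c ≤ max (rho a b) (rho b c)` -/
theorem rho_trans {a b c : ι} (hab : a ≤ b) (hbc : b ≤ c) :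
    rho F a c ≤ max (rho F a b) (rho F b c) := by
  rw [hF.rho_le_iff (hab.trans hbc)]
  refine hF.trans (b := b) ?_ ?_
  · exact (hF.rho_le_iff hbc).1 (le_max_right _ _)
  · exact (hF.rho_le_iff hab).1 (le_max_left _ _)

/-- `rho a b ≤ max (rho a c) (rho b c)` -/
theorem rho_left {a b c : ι} (hab : a ≤ b) (hbc : b ≤ c) :
    rho F a b ≤ max (rho F a c) (rho F b c) := by
  rw [hF.rho_le_iff hab]
  refine hF.mem_of_le (c := c) ?_ ?_ hab
  · exact (hF.rho_le_iff hbc).1 (le_max_right _ _)
  · exact (hF.rho_le_iff (hab.trans hbc)).1 (le_max_left _ _)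

end Coherent

end Vale.Agent.P129.H630
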